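import Vale.Agent.P086.Gen

/-! From the absorption lemma to the isomorphism, by the Baire category theorem. -/

namespace Vale.Agent.P086

open Filter Topology
open scoped InnerProductSpace

variable {κ ι : Type}

/-- One extra generator can be absorbed while the other generators move very little. -/
def KeyProp (e : κ → ι) : Prop :=
  ∀ i₀ : ι, i₀ ∉ Set.range e → ∀ ε : ℝ, 0 < ε →
    ∃ U : L2 (FreeGroup ι) ≃ₗᵢ[ℂ] L2 (FreeGroup ι), Good U ∧
      (∀ i, i ≠ i₀ → ‖U (dl (FreeGroup.of i)) - dl (FreeGroup.of i)‖ ≤ ε) ∧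
      ∃ w : FreeGroup κ, ‖U (dl (FreeGroup.map e w)) - dl (FreeGroup.of i₀)‖ ≤ ε

lemma Good.dist_hom {G : Type} [Group G] [DecidableEq κ] {U V : L2 G ≃ₗᵢ[ℂ] L2 G} (hU : Good U)
    (hV : Good V) (φ ψ : FreeGroup κ →* G) {ε : ℝ}
    (h : ∀ x, ‖U (dl (φ (FreeGroup.of x))) - V (dl (ψ (FreeGroup.of x)))‖ ≤ ε) (k : FreeGroup κ) :
    ‖U (dl (φ k)) - V (dl (ψ k))‖ ≤ k.norm * ε := by
  have := (hU.isRep.comp φ).dist_free (hV.isRep.comp ψ) (ε := ε) (fun x => by
    simpa only [MonoidHom.comp_apply, hU.repOf_dl, hV.repOf_dl] using h x) k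
  simpa only [MonoidHom.comp_apply, hU.repOf_dl, hV.repOf_dl] using this

lemma norm_trans_sub {E : Type} [NormedAddCommGroup E] [InnerProductSpace ℂ E]
    (U V : E ≃ₗᵢ[ℂ] E) (x y z : E) :
    ‖(U.trans V) x - z‖ ≤ ‖U x - y‖ + ‖V y - z‖ := by
  have e : (U.trans V) x - z = V (U x - y) + (V y - z) := by simp
  rw [e]
  refine (norm_add_le _ _).trans (le_of_eq ?_)
  rw [V.norm_map]

lemma key_finset [DecidableEq κ] {e : κ → ι} (hk : KeyProp e) (s : Finset ι) :
    ∀ ε : ℝ, 0 < ε → ∃ U : L2 (FreeGroup ι) ≃ₗᵢ[ℂ] L2 (FreeGroup ι), Good U ∧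
      (∀ i, (i ∈ Set.range e ∨ i ∉ s) → ‖U (dl (FreeGroup.of i)) - dl (FreeGroup.of i)‖ ≤ ε) ∧
      ∀ i ∈ s, ∃ w : FreeGroup κ, ‖U (dl (FreeGroup.map e w)) - dl (FreeGroup.of i)‖ ≤ ε := by
  classical
  induction s using Finset.induction_on with
  | empty => exact fun ε hε => ⟨_, Good.refl, fun i _ => by simpa using hε.le, by simp⟩
  | insert i₀ s hi₀ ih =>
    intro ε hε
    by_cases hr : i₀ ∈ Set.range e
    · obtain ⟨U, hU, h1, h2⟩ := ih ε hε
      refine ⟨U, hU, fun i hi => h1 i (hi.imp id fun h h' => h (Finset.mem_insert_of_mem h')),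
        fun i hi => ?_⟩
      rcases Finset.mem_insert.1 hi with rfl | hi
      · obtain ⟨x, hx⟩ := hr
        exact ⟨FreeGroup.of x, by rw [FreeGroup.map.of, hx]; exact h1 i (Or.inr hi₀)⟩
      · exact h2 i hi
    · obtain ⟨U, hU, h1, h2⟩ := ih (ε / 2) (by positivity)
      choose! σ hσ using h2
      set C : ℝ := 1 + ∑ i ∈ s, ((σ i).norm : ℝ) with hC
      have hC1 : 1 ≤ C := by
        have : 0 ≤ ∑ i ∈ s, ((σ i).norm : ℝ) := Finset.sum_nonneg fun _ _ => Nat.cast_nonneg _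
        linarith
      have hCi : ∀ i ∈ s, ((σ i).norm : ℝ) ≤ C := fun i hi => by
        have := Finset.single_le_sum (f := fun i => ((σ i).norm : ℝ))
          (fun _ _ => Nat.cast_nonneg _) hi
        linarith
      have hδ : ε / 2 / C ≤ ε / 2 := div_le_self (by positivity) hC1
      obtain ⟨V, hV, k1, w, k2⟩ := hk i₀ hr (ε / 2 / C) (by positivity)
      refine ⟨V.trans U, hV.trans hU, fun i hi => ?_, fun i hi => ?_⟩
      · have hne : i ≠ i₀ := by
          rintro rfl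
          exact hi.elim hr fun h => h (Finset.mem_insert_self _ _)
        have := h1 i (hi.imp id fun h h' => h (Finset.mem_insert_of_mem h'))
        linarith [norm_trans_sub V U (dl (FreeGroup.of i)) (dl (FreeGroup.of i))
          (dl (FreeGroup.of i)), k1 i hne]
      rcases Finset.mem_insert.1 hi with rfl | hi
      · refine ⟨w, ?_⟩
        linarith [norm_trans_sub V U (dl (FreeGroup.map e w)) (dl (FreeGroup.of i))
          (dl (FreeGroup.of i)), h1 i (Or.inr hi₀)]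
      · refine ⟨σ i, ?_⟩
        have a1 := hV.dist_hom Good.refl (FreeGroup.map e) (FreeGroup.map e) (ε := ε / 2 / C)
          (fun x => k1 (e x) fun h => hr ⟨x, h⟩) (σ i)
        have a2 : ((σ i).norm : ℝ) * (ε / 2 / C) ≤ ε / 2 := by
          calc ((σ i).norm : ℝ) * (ε / 2 / C) ≤ C * (ε / 2 / C) := by
                gcongr; exact hCi i hi
            _ = ε / 2 := by field_simp
        have a3 := norm_trans_sub V U (dl (FreeGroup.map e (σ i))) (dl (FreeGroup.map e (σ i)))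
          (dl (FreeGroup.of i))
        have a4 := hσ i hi
        simp only [LinearIsometryEquiv.coe_refl, id] at a1
        linarith

lemma exists_support (g : FreeGroup ι) : ∃ s : Finset ι, ∀ (φ : FreeGroup ι →* FreeGroup ι)
    (N : Subgroup (FreeGroup ι)), (∀ i ∈ s, φ (FreeGroup.of i) ∈ N) → φ g ∈ N := by
  classical
  induction g using FreeGroup.induction_on with
  | C1 => exact ⟨∅, fun φ N _ => by simp⟩
  | of i => exact ⟨{i}, fun φ N h => h i (Finset.mem_singleton_self i)⟩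
  | inv_of i ih =>
    obtain ⟨s, hs⟩ := ih
    exact ⟨s, fun φ N h => by rw [map_inv]; exact N.inv_mem (hs φ N h)⟩
  | mul x y hx hy =>
    obtain ⟨s, hs⟩ := hx
    obtain ⟨t, ht⟩ := hy
    exact ⟨s ∪ t, fun φ N h => by
      rw [map_mul]
      exact N.mul_mem (hs φ N fun i hi => h i (Finset.mem_union_left _ hi))
        (ht φ N fun i hi => h i (Finset.mem_union_right _ hi))⟩

lemma span_approx (e : κ → ι) (ζ₀ : L2 (FreeGroup ι))
    (hζ : ζ₀ ∈ Submodule.span ℂ (Set.range (dl : FreeGroup ι → L2 (FreeGroup ι)))) :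
    ∃ (s : Finset ι) (C : ℝ), 0 ≤ C ∧ ∀ (U : L2 (FreeGroup ι) ≃ₗᵢ[ℂ] L2 (FreeGroup ι)) (ε : ℝ)
      (σ : ι → FreeGroup ι), Good U → (∀ i, ‖U (dl (σ i)) - dl (FreeGroup.of i)‖ ≤ ε) →
      (∀ i ∈ s, σ i ∈ (FreeGroup.map e).range) →
      ∃ ζ ∈ Submodule.span ℂ (Set.range fun h => U (dl (FreeGroup.map e h))),
        ‖ζ - ζ₀‖ ≤ C * ε := by
  classical
  induction hζ using Submodule.span_induction with
  | mem x hx =>
    obtain ⟨g, rfl⟩ := hx
    obtain ⟨s, hs⟩ := exists_support g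
    refine ⟨s, g.norm, Nat.cast_nonneg _, fun U ε σ hU h1 h2 => ?_⟩
    obtain ⟨h, hh⟩ := hs (FreeGroup.lift σ) _ fun i hi => by
      rw [FreeGroup.lift_apply_of]; exact h2 i hi
    refine ⟨_, Submodule.subset_span ⟨h, rfl⟩, ?_⟩
    have := hU.dist_hom Good.refl (FreeGroup.lift σ) (MonoidHom.id _) (ε := ε)
      (fun x => by simpa using h1 x) g
    simpa [hh] using this
  | zero => exact ⟨∅, 0, le_rfl, fun U ε σ _ _ _ => ⟨0, Submodule.zero_mem _, by simp⟩⟩
  | add x y _ _ hx hy =>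
    obtain ⟨s, C, hC, hs⟩ := hx
    obtain ⟨t, D, hD, ht⟩ := hy
    refine ⟨s ∪ t, C + D, by positivity, fun U ε σ hU h1 h2 => ?_⟩
    obtain ⟨ζ, a1, a2⟩ := hs U ε σ hU h1 fun i hi => h2 i (Finset.mem_union_left _ hi)
    obtain ⟨ζ', b1, b2⟩ := ht U ε σ hU h1 fun i hi => h2 i (Finset.mem_union_right _ hi)
    refine ⟨ζ + ζ', Submodule.add_mem _ a1 b1, ?_⟩
    rw [add_sub_add_comm, add_mul]
    exact (norm_add_le _ _).trans (add_le_add a2 b2)
  | smul c x _ hx =>
    obtain ⟨s, C, hC, hs⟩ := hx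
    refine ⟨s, ‖c‖ * C, by positivity, fun U ε σ hU h1 h2 => ?_⟩
    obtain ⟨ζ, a1, a2⟩ := hs U ε σ hU h1 h2
    refine ⟨c • ζ, Submodule.smul_mem _ _ a1, ?_⟩
    rw [← smul_sub, norm_smul, mul_assoc]
    gcongr

lemma key_approx {e : κ → ι} (hk : KeyProp e) {V : L2 (FreeGroup ι) ≃ₗᵢ[ℂ] L2 (FreeGroup ι)}
    (hV : Good V) (ξ : L2 (FreeGroup ι)) {η : ℝ} (hη : 0 < η) :
    ∃ V' : L2 (FreeGroup ι) ≃ₗᵢ[ℂ] L2 (FreeGroup ι), Good V' ∧
      (∀ x, ‖V' (dl (FreeGroup.of (e x))) - V (dl (FreeGroup.of (e x)))‖ ≤ η) ∧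
      ∃ ζ ∈ Submodule.span ℂ (Set.range fun h => V' (dl (FreeGroup.map e h))), ‖ζ - ξ‖ < η := by
  classical
  obtain ⟨ζ₀, h1, h2⟩ := Metric.mem_closure_iff.1
    (dense_span_of_le (dense_dl (G := FreeGroup ι)) (V.symm ξ)) (η / 2) (by positivity)
  obtain ⟨s, C, hC, hs⟩ := span_approx e ζ₀ h1
  set ε := η / 2 / (C + 1) with hε
  have hε0 : 0 < ε := by positivity
  have hε1 : ε ≤ η := by
    have : ε ≤ η / 2 := div_le_self (by positivity) (by linarith)
    linarith
  have hε2 : C * ε ≤ η / 2 := by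
    calc C * ε ≤ (C + 1) * ε := by gcongr; linarith
      _ = η / 2 := by rw [hε]; field_simp
  obtain ⟨U, hU, a1, a2⟩ := key_finset hk s ε hε0
  choose! σ hσ using a2
  obtain ⟨ζ, b1, b2⟩ := hs U ε (fun i => if i ∈ s then FreeGroup.map e (σ i) else FreeGroup.of i)
    hU (fun i => by
      split_ifs with hi
      · exact hσ i hi
      · exact a1 i (Or.inr hi)) (fun i hi => by
      rw [if_pos hi]
      exact ⟨_, rfl⟩)
  refine ⟨U.trans V, hU.trans hV, fun x => ?_, V ζ, ?_, ?_⟩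
  · rw [LinearIsometryEquiv.trans_apply, ← map_sub, V.norm_map]
    exact (a1 _ (Or.inl ⟨x, rfl⟩)).trans hε1
  · have := Submodule.mem_map_of_mem (f := V.toLinearEquiv.toLinearMap) b1
    rw [Submodule.map_span, ← Set.range_comp] at this
    exact this
  · rw [← V.symm.norm_map, map_sub, V.symm_apply_apply]
    rw [dist_eq_norm, norm_sub_rev] at h2
    calc ‖ζ - V.symm ξ‖ ≤ ‖ζ - ζ₀‖ + ‖ζ₀ - V.symm ξ‖ := norm_sub_le_norm_sub_add_norm_sub _ _ _
      _ < η := by linarith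

lemma exists_rep {G : Type} [Group G] (u : κ → BG G) (hu : ∀ x, UM (u x)) :
    ∃ π : FreeGroup κ →* BG G, IsRep π ∧ ∀ x, π (FreeGroup.of x) = u x := by
  let v : κ → unitary (BG G) := fun x => ⟨u x, (hu x).left, (hu x).right⟩
  refine ⟨(unitary (BG G)).subtype.comp (FreeGroup.lift v), ⟨fun k => ?_, fun k => ?_⟩,
    fun x => by simp [v]⟩
  · induction k using FreeGroup.induction_on with
    | C1 => rw [map_one]; exact InM.one
    | of x => simpa [v] using (hu x).mem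
    | inv_of x ih =>
      simp only [MonoidHom.comp_apply, map_inv] at *
      exact ih.star
    | mul x y hx hy => rw [map_mul]; exact hx.mul hy
  · simp only [MonoidHom.comp_apply, map_inv]
    rfl

lemma isOpen_span_near {X E H : Type} [TopologicalSpace X] [NormedAddCommGroup E]
    [NormedSpace ℂ E] (Φ : X → H → E) (hΦ : ∀ h, Continuous fun p => Φ p h) (ξ : E) (r : ℝ) :
    IsOpen {p | ∃ ζ ∈ Submodule.span ℂ (Set.range (Φ p)), ‖ζ - ξ‖ < r} := by
  have : {p | ∃ ζ ∈ Submodule.span ℂ (Set.range (Φ p)), ‖ζ - ξ‖ < r}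
      = ⋃ f : H →₀ ℂ, {p | ‖(∑ h ∈ f.support, f h • Φ p h) - ξ‖ < r} := by
    ext p
    simp only [Set.mem_ofPred_eq, Set.mem_iUnion, Finsupp.mem_span_range_iff_exists_finsupp]
    constructor
    · rintro ⟨_, ⟨f, rfl⟩, h⟩
      exact ⟨f, h⟩
    · rintro ⟨f, h⟩
      exact ⟨_, ⟨f, rfl⟩, h⟩
  rw [this]
  refine isOpen_iUnion fun f => isOpen_lt ?_ continuous_const
  exact ((continuous_finsetSum _ fun h _ => (hΦ h).const_smul (f h)).sub continuous_const).norm

/-- The point of the parameter space attached to a unitary. -/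
noncomputable def pt (e : κ → ι) (V : L2 (FreeGroup ι) ≃ₗᵢ[ℂ] L2 (FreeGroup ι)) :
    κ → L2 (FreeGroup ι) := fun x => V (dl (FreeGroup.of (e x)))

/-- The parameter space. -/
def Par (e : κ → ι) : Set (κ → L2 (FreeGroup ι)) := closure (pt e '' {V | Good V})

/-- The point of the parameter space attached to a good unitary. -/
noncomputable def ptP (e : κ → ι) {V : L2 (FreeGroup ι) ≃ₗᵢ[ℂ] L2 (FreeGroup ι)} (hV : Good V) :
    Par e := ⟨pt e V, subset_closure ⟨V, hV, rfl⟩⟩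

lemma exists_rep_par [Finite κ] (e : κ → ι) (p : Par e) :
    ∃ π : FreeGroup κ →* BG (FreeGroup ι), IsRep π ∧
      ∀ x, π (FreeGroup.of x) (dl 1) = p.1 x := by
  have := Fintype.ofFinite κ
  obtain ⟨p, hp⟩ := p
  obtain ⟨q, hq, hlim⟩ := mem_closure_iff_seq_limit.1 hp
  choose V hV hVq using hq
  have : ∀ x, ∃ v, UM v ∧ v (dl 1) = p x := fun x =>
    exists_um_of_tendsto (u := fun n => repOf (V n) (FreeGroup.of (e x)))
      (fun n => (Good.isRep (hV n)).um _) (by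
        have := tendsto_pi_nhds.1 hlim x
        refine this.congr fun n => ?_
        rw [Good.repOf_dl (hV n), ← hVq n]
        rfl)
  choose v hv1 hv2 using this
  obtain ⟨π, hπ, hπv⟩ := exists_rep v hv1
  exact ⟨π, hπ, fun x => by rw [hπv, hv2]⟩

lemma par_near [Fintype κ] (e : κ → ι) (p : Par e) {ε : ℝ} (hε : 0 < ε) :
    ∃ V, ∃ hV : Good V, dist p (ptP e hV) < ε := by
  obtain ⟨_, ⟨V, hV, rfl⟩, h⟩ := Metric.mem_closure_iff.1 p.2 ε hε
  exact ⟨V, hV, h⟩

section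

variable [Fintype κ] [DecidableEq κ] {e : κ → ι} {π : Par e → FreeGroup κ →* BG (FreeGroup ι)}
  (hπ : ∀ p, IsRep (π p)) (hπp : ∀ p x, π p (FreeGroup.of x) (dl 1) = p.1 x)

include hπ hπp

lemma par_lip (p q : Par e) (h : FreeGroup κ) :
    ‖π p h (dl 1) - π q h (dl 1)‖ ≤ h.norm * dist p q :=
  (hπ p).dist_free (hπ q) (fun x => by
    rw [hπp, hπp, ← dist_eq_norm]
    exact dist_le_pi_dist p.1 q.1 x) h

lemma par_cont (h : FreeGroup κ) : Continuous fun p => π p h (dl 1) :=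
  (LipschitzWith.of_dist_le_mul (K := h.norm) fun p q => by
    rw [dist_eq_norm]; exact par_lip hπ hπp p q h).continuous

omit [Fintype κ] in
lemma par_pt {V : L2 (FreeGroup ι) ≃ₗᵢ[ℂ] L2 (FreeGroup ι)} (hV : Good V) (h : FreeGroup κ) :
    π (ptP e hV) h (dl 1) = V (dl (FreeGroup.map e h)) := by
  have := (hπ (ptP e hV)).dist_free
    (hV.isRep.comp (FreeGroup.map e)) (ε := 0) (fun x => by
      rw [hπp, MonoidHom.comp_apply, hV.repOf_dl]
      simp [ptP, pt]) h
  rw [mul_zero, norm_le_zero_iff, sub_eq_zero, MonoidHom.comp_apply, hV.repOf_dl] at this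
  exact this

lemma par_dense (hk : KeyProp e) (ξ : L2 (FreeGroup ι)) {r : ℝ} (hr : 0 < r) :
    Dense {p : Par e | ∃ ζ ∈ Submodule.span ℂ (Set.range fun h => π p h (dl 1)), ‖ζ - ξ‖ < r} := by
  intro p
  rw [Metric.mem_closure_iff]
  intro ε hε
  obtain ⟨V, hV, h1⟩ := par_near e p (half_pos hε)
  obtain ⟨V', hV', h2, ζ, h3, h4⟩ := key_approx hk hV ξ
    (η := min (ε / 2) r) (lt_min (by positivity) hr)
  refine ⟨ptP e hV', ⟨ζ, ?_, h4.trans_le (min_le_right _ _)⟩, ?_⟩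
  · simpa only [par_pt hπ hπp hV'] using h3
  · have h5 : dist (ptP e hV) (ptP e hV') ≤ ε / 2 := by
      change dist (pt e V) (pt e V') ≤ ε / 2
      rw [dist_pi_le_iff (by positivity)]
      intro x
      rw [dist_eq_norm, norm_sub_rev]
      exact (h2 x).trans (min_le_left _ _)
    linarith [dist_triangle p (ptP e hV) (ptP e hV')]

lemma par_free (he : Function.Injective e) (p : Par e) (h : FreeGroup κ) (hh : h ≠ 1) :
    π p h (dl 1) 1 = 0 := by
  have key : ∀ ε : ℝ, 0 < ε → ‖π p h (dl 1) 1‖ ≤ h.norm * ε := by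
    intro ε hε
    obtain ⟨V, hV, h1⟩ := par_near e p hε
    have h2 := par_lip hπ hπp p (ptP e hV) h
    rw [par_pt hπ hπp hV] at h2
    have h3 : V (dl (FreeGroup.map e h)) 1 = 0 := by
      rw [← inner_dl, ← hV.one, V.inner_map_map, inner_dl]
      refine dl_ne fun h4 => hh ?_
      exact FreeGroup.map_injective he (by rw [map_one]; exact h4.symm)
    have h4 := lp.norm_apply_le_norm (by norm_num)
      (π p h (dl 1) - V (dl (FreeGroup.map e h))) 1
    rw [lp.coeFn_sub, Pi.sub_apply, h3, sub_zero] at h4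
    calc _ ≤ (h.norm : ℝ) * dist p _ := h4.trans h2
      _ ≤ _ := by gcongr
  have hlim : Tendsto (fun ε : ℝ => (h.norm : ℝ) * ε) (𝓝[>] 0) (𝓝 0) := by
    have : Tendsto (fun ε : ℝ => (h.norm : ℝ) * ε) (𝓝 0) (𝓝 ((h.norm : ℝ) * 0)) :=
      (continuous_const.mul continuous_id).tendsto 0
    rw [mul_zero] at this
    exact this.mono_left nhdsWithin_le_nhds
  exact norm_le_zero_iff.1 (ge_of_tendsto hlim (eventually_nhdsWithin_of_forall key))

end

theorem exists_good_of_key [Finite κ] [Countable ι] {e : κ → ι} (he : Function.Injective e)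
    (hk : KeyProp e) : ∃ U : L2 (FreeGroup κ) ≃ₗᵢ[ℂ] L2 (FreeGroup ι), Good U := by
  classical
  have := Fintype.ofFinite κ
  choose π hπ hπp using exists_rep_par e
  have : CompleteSpace (Par e) := isClosed_closure.completeSpace_coe
  have : Nonempty (Par e) := ⟨ptP e Good.refl⟩
  obtain ⟨p, hp⟩ := (dense_iInter_of_isOpen (ι := FreeGroup ι × ℕ)
    (fun a => isOpen_span_near (fun p h => π p h (dl 1)) (par_cont hπ hπp) (dl a.1)
      (1 / ((a.2 : ℝ) + 1)))
    (fun a => par_dense hπ hπp hk (dl a.1) (by positivity))).nonempty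
  rw [Set.mem_iInter] at hp
  obtain ⟨U, hU, -⟩ := (hπ p).exists_good (par_free hπ hπp he p) (by
    refine dense_dl.trans (Submodule.topologicalClosure_minimal _ ?_
      (Submodule.isClosed_topologicalClosure _))
    rw [Submodule.span_le]
    rintro _ ⟨g, rfl⟩
    rw [Submodule.topologicalClosure_coe, Metric.mem_closure_iff]
    intro ε hε
    obtain ⟨n, hn⟩ := exists_nat_one_div_lt hε
    obtain ⟨ζ, h1, h2⟩ := hp (g, n)
    exact ⟨ζ, h1, by rw [dist_eq_norm, norm_sub_rev]; exact h2.trans hn⟩)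
  exact ⟨U, hU⟩

end Vale.Agent.P086
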