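import Vale.Agent.P086.Alg

/-! A Haar unitary is a `2`-norm limit of exponentials of skew-adjoint polynomials in it. -/

namespace Vale.Agent.P086

open Filter Topology Finset NormedSpace
open scoped InnerProductSpace

section CStar

variable {A : Type} [CStarAlgebra A]

lemma exists_log {u : A} (hu : u ∈ unitary A) {r : ℝ} (hr0 : 0 ≤ r) (hr : r < 1) :
    ∃ L : A, exp L = 1 + (r : ℂ) • u ∧ Commute L (star L) ∧ Commute L (star u) ∧
      Commute (star L) (star u) ∧
      Tendsto (fun n => ∑ k ∈ range n, (((-1) ^ k * r ^ (k + 1) / (k + 1) : ℝ) : ℂ) • u ^ (k + 1))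
        atTop (𝓝 L) := by
  have hn : IsStarNormal u := ⟨by
    rw [Commute, SemiconjBy, (Unitary.mem_iff.1 hu).1, (Unitary.mem_iff.1 hu).2]⟩
  have hz : ∀ x ∈ spectrum ℂ u, ‖(r : ℂ) * x‖ = r := fun x hx => by
    rw [norm_mul, spectrum.norm_eq_one_of_unitary hu hx, mul_one, Complex.norm_real,
      Real.norm_of_nonneg hr0]
  have hslit : ∀ x ∈ spectrum ℂ u, 1 + (r : ℂ) * x ∈ Complex.slitPlane := fun x hx =>
    Complex.mem_slitPlane_of_norm_lt_one (by rw [hz x hx]; exact hr)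
  have hc : ContinuousOn (fun x : ℂ => Complex.log (1 + (r : ℂ) * x)) (spectrum ℂ u) :=
    ContinuousOn.clog (by fun_prop) hslit
  have hsu : star u = cfc (fun x : ℂ => star x) u := (cfc_star_id (R := ℂ) (a := u)).symm
  refine ⟨cfc (fun x : ℂ => Complex.log (1 + (r : ℂ) * x)) u, ?_, ?_, ?_, ?_, ?_⟩
  · rw [← CFC.complex_exp_eq_normedSpace_exp, ← cfc_comp' Complex.exp _ u (by fun_prop) hc]
    rw [cfc_congr (g := fun x => 1 + (r : ℂ) * x) fun x hx =>
      Complex.exp_log (Complex.slitPlane_ne_zero (hslit x hx))]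
    rw [cfc_const_add _ _ u, cfc_const_mul _ _ u, cfc_id' ℂ u, map_one]
  · rw [← cfc_star]; exact cfc_commute_cfc _ _ _
  · rw [hsu]; exact cfc_commute_cfc _ _ _
  · rw [← cfc_star, hsu]; exact cfc_commute_cfc _ _ _
  · have e : ∀ n, ∑ k ∈ range n, (((-1) ^ k * r ^ (k + 1) / (k + 1) : ℝ) : ℂ) • u ^ (k + 1)
        = cfc (fun x : ℂ => Complex.logTaylor (n + 1) ((r : ℂ) * x)) u := by
      intro n
      have e1 : (fun x : ℂ => Complex.logTaylor (n + 1) ((r : ℂ) * x))
          = ∑ k ∈ range n, fun x : ℂ =>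
            (((-1) ^ k * r ^ (k + 1) / (k + 1) : ℝ) : ℂ) * x ^ (k + 1) := by
        funext x
        rw [Complex.logTaylor, Finset.sum_apply]
        simp only [Finset.sum_range_succ' _ n]
        simp only [Nat.cast_zero, div_zero, add_zero]
        refine Finset.sum_congr rfl fun k _ => ?_
        push_cast
        ring
      rw [e1, cfc_sum _ u _ (fun k _ => by fun_prop)]
      refine Finset.sum_congr rfl fun k _ => ?_
      rw [cfc_const_mul _ _ u, cfc_pow_id u]
    simp only [e]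
    rw [tendsto_iff_norm_sub_tendsto_zero]
    have hlim : Tendsto (fun n : ℕ => r ^ n * (1 - r)⁻¹) atTop (𝓝 0) := by
      simpa using (tendsto_pow_atTop_nhds_zero_of_lt_one hr0 hr).mul_const (1 - r)⁻¹
    have hr1 : 0 < 1 - r := by linarith
    refine squeeze_zero (fun _ => norm_nonneg _) (fun n => ?_) hlim
    have hc2 : ContinuousOn (fun x : ℂ => Complex.logTaylor (n + 1) ((r : ℂ) * x))
        (spectrum ℂ u) := by
      unfold Complex.logTaylor
      fun_prop
    rw [norm_sub_rev, ← cfc_sub _ _ u hc hc2]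
    refine norm_cfc_le (by positivity) fun x hx => ?_
    refine (Complex.norm_log_sub_logTaylor_le n (by rw [hz x hx]; exact hr)).trans ?_
    rw [hz x hx]
    calc r ^ (n + 1) * (1 - r)⁻¹ / (n + 1) ≤ r ^ (n + 1) * (1 - r)⁻¹ :=
          div_le_self (by positivity) (by linarith [Nat.cast_nonneg (α := ℝ) n])
      _ ≤ r ^ n * (1 - r)⁻¹ := by
          exact mul_le_mul_of_nonneg_right (pow_le_pow_of_le_one hr0 hr.le (Nat.le_succ n))
            (by positivity)

lemma exists_exp_limit {u : A} (hu : u ∈ unitary A) {r : ℝ} (hr0 : 0 ≤ r) (hr : r < 1) :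
    ∃ V : A, star V * V = 1 ∧ (1 + (r : ℂ) • star u) * V = 1 + (r : ℂ) • u ∧
      Tendsto (fun n => exp (∑ k ∈ range n, (((-1) ^ k * r ^ (k + 1) / (k + 1) : ℝ) : ℂ) •
        (u ^ (k + 1) - star (u ^ (k + 1))))) atTop (𝓝 V) := by
  let +nondep : NormedAlgebra ℚ A := .restrictScalars ℚ ℂ A
  obtain ⟨L, h1, h2, -, -, h5⟩ := exists_log hu hr0 hr
  refine ⟨exp (L - star L), ?_, ?_, ?_⟩
  · exact (Unitary.mem_iff.1 (exp_mem_unitary_of_mem_skewAdjoint (x := L - star L)
      (by rw [skewAdjoint.mem_iff, star_sub, star_star, neg_sub]))).1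
  · have e : 1 + (r : ℂ) • star u = exp (star L) := by
      rw [← star_exp, h1, star_add, star_one, star_smul, Complex.star_def, Complex.conj_ofReal]
    rw [e, ← exp_add_of_commute (h2.symm.sub_right (Commute.refl _)), ← h1]
    congr 1
    abel
  · refine (exp_continuous.tendsto _).comp ((h5.sub h5.star).congr fun n => ?_)
    rw [star_sum, ← Finset.sum_sub_distrib]
    refine Finset.sum_congr rfl fun k _ => ?_
    rw [star_smul, Complex.star_def, Complex.conj_ofReal, smul_sub]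

lemma exp_steps {Y : A} (hY : star Y = -Y) {ε : ℝ} (hε : 0 < ε) :
    ∀ᶠ N : ℕ in atTop, ∃ E : A, star E * E = 1 ∧ E ^ N = exp Y ∧
      (∀ S, Commute S Y → Commute S E) ∧
      ‖E - 1 - ((1 / N : ℝ) : ℂ) • Y‖ ≤ ε * (1 / N) := by
  let +nondep : NormedAlgebra ℚ A := .restrictScalars ℚ ℂ A
  have hd := hasDerivAt_exp_smul_const (𝕂 := ℂ) Y 0
  rw [hasDerivAt_iff_isLittleO_nhds_zero] at hd
  have ht : Tendsto (fun N : ℕ => ((1 / N : ℝ) : ℂ)) atTop (𝓝 0) := by
    exact (Complex.continuous_ofReal.tendsto 0).comp tendsto_one_div_atTop_nhds_zero_nat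
  filter_upwards [ht.eventually (hd.bound hε), eventually_gt_atTop 0] with N hN hN0
  have hN' : (N : ℂ) ≠ 0 := by exact_mod_cast hN0.ne'
  refine ⟨exp (((1 / N : ℝ) : ℂ) • Y), ?_, ?_, fun S hS => (hS.smul_right _).exp_right, ?_⟩
  · exact (Unitary.mem_iff.1 (exp_mem_unitary_of_mem_skewAdjoint (by
      rw [skewAdjoint.mem_iff, star_smul, Complex.star_def, Complex.conj_ofReal, hY,
        smul_neg]))).1
  · rw [← exp_nsmul, ← Nat.cast_smul_eq_nsmul ℂ, smul_smul]
    congr 1
    push_cast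
    rw [mul_one_div_cancel hN', one_smul]
  · simpa using hN

end CStar

variable {G : Type} [Group G]

/-- A skew-symmetric real trigonometric polynomial in `z`. -/
noncomputable def Sg (z : G) (n : ℕ) (s : ℕ → ℝ) : AG G :=
  ∑ k ∈ range n, s k • (og (z ^ (k + 1)) - og (z ^ (k + 1))⁻¹)

lemma exists_skew (z : G) (hz : ∀ k : ℕ, z ^ (k + 1) ≠ 1) {ε : ℝ} (hε : 0 < ε) :
    ∃ (n : ℕ) (s : ℕ → ℝ), ‖exp (Lam (Sg z n s)) (dl 1) - dl z‖ ≤ ε := by
  obtain ⟨r, hr0, hr1, hrε⟩ : ∃ r : ℝ, 0 ≤ r ∧ r < 1 ∧ 2 - 2 * r ≤ (ε / 2) ^ 2 :=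
    ⟨max 0 (1 - (ε / 2) ^ 2 / 2), le_max_left _ _, max_lt one_pos (by
      have : 0 < (ε / 2) ^ 2 := by positivity
      linarith), by linarith [le_max_right 0 (1 - (ε / 2) ^ 2 / 2)]⟩
  have hu : lam z ∈ unitary (BG G) := ⟨(isRep_lam.um z).left, (isRep_lam.um z).right⟩
  obtain ⟨V, h1, h2, h3⟩ := exists_exp_limit hu hr0 hr1
  have hV : ‖V (dl 1)‖ = 1 := by rw [norm_of_star_mul h1, norm_dl]
  have hrec : ∀ g, V (dl 1) g + r * V (dl 1) (z * g) = dl 1 g + r * dl z g := fun g => by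
    have := congrArg (fun X : BG G => X (dl 1) g) h2
    simpa only [star_lam, mul_apply_eq_comp, add_apply,
      one_apply_eq_self, smul_apply, lp.coeFn_add, lp.coeFn_smul,
      Pi.add_apply, Pi.smul_apply, smul_eq_mul, lam_dl, lam_apply, inv_inv, mul_one] using this
  have hpow : ∀ j : ℕ, ‖V (dl 1) (z ^ 2)‖ ≤ r ^ j := by
    have key : ∀ j k : ℕ, ‖V (dl 1) (z ^ (k + 2))‖ ≤ r ^ j := by
      intro j
      induction j with
      | zero => exact fun k => by simpa [hV] using lp.norm_apply_le_norm (by norm_num) (V (dl 1)) _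
      | succ j ih =>
        intro k
        have := hrec (z ^ (k + 2))
        rw [dl_ne (hz (k + 1)), dl_ne (fun h => hz k (by
          rw [pow_succ] at h
          exact mul_eq_right.1 h)), ← pow_succ', mul_zero, add_zero,
          add_eq_zero_iff_eq_neg] at this
        rw [this, norm_neg, norm_mul, Complex.norm_real, Real.norm_of_nonneg hr0, pow_succ' r j]
        exact mul_le_mul_of_nonneg_left (ih (k + 1)) hr0
    exact fun j => key j 0
  have hz2 : V (dl 1) (z ^ 2) = 0 :=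
    norm_le_zero_iff.1 (ge_of_tendsto' (tendsto_pow_atTop_nhds_zero_of_lt_one hr0 hr1) hpow)
  have hz1 : V (dl 1) z = r := by
    have := hrec z
    rw [← sq, hz2, dl_ne (by simpa using hz 0), dl_self] at this
    simpa using this
  have hVz : ‖V (dl 1) - dl z‖ ≤ ε / 2 := by
    refine (pow_le_pow_iff_left₀ (norm_nonneg _) (by positivity) two_ne_zero).1 ?_
    rw [norm_sub_rev, @norm_sub_sq ℂ, inner_dl, hz1, hV, norm_dl]
    simp only [RCLike.re_to_complex, Complex.ofReal_re]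
    linarith
  have h4 := ((ContinuousLinearMap.apply ℂ (L2 G) (dl 1)).continuous.tendsto _).comp h3
  obtain ⟨n, hn⟩ := (h4.eventually (Metric.ball_mem_nhds _ (half_pos hε))).exists
  refine ⟨n, fun k => (-1) ^ k * r ^ (k + 1) / (k + 1), ?_⟩
  have e : Lam (Sg z n fun k => (-1) ^ k * r ^ (k + 1) / (k + 1))
      = ∑ k ∈ range n, (((-1) ^ k * r ^ (k + 1) / (k + 1) : ℝ) : ℂ) •
        (lam z ^ (k + 1) - star (lam z ^ (k + 1))) := by
    rw [Sg, map_sum]
    refine Finset.sum_congr rfl fun k _ => ?_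
    rw [map_smul, real_smul_eq, map_sub, Lam_og, Lam_og, ← map_pow, star_lam]
  rw [e]
  rw [dist_eq_norm] at hn
  exact (norm_sub_le_norm_sub_add_norm_sub _ (V (dl 1)) _).trans (by
    simp only [Function.comp_apply, ContinuousLinearMap.apply_apply] at hn
    linarith)

end Vale.Agent.P086
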