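import Vale.Agent.P086.Cocycle
import Vale.Agent.P086.Exp
import Vale.Agent.P086.Baire

/-! The absorption lemma. -/

namespace Vale.Agent.P086

open Finset Filter NormedSpace

lemma norm_vec_linExt {G K : Type} [Group G] [Group K] {φ : K → G} (hφ : Function.Injective φ)
    (f : AG K) : ‖vec (linExt (fun k => og (φ k)) f)‖ = ‖vec f‖ := by
  obtain ⟨T, h1, h2⟩ := exists_isom (v := fun k => dl (φ k)) (orthonormal_dl.comp φ hφ)
  rw [← h1]
  congr 1
  induction f using MonoidAlgebra.induction_on with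
  | of k => rw [linExt_og, vec_og, vec_og, h2]
  | add x y hx hy => rw [map_add, vec_add, vec_add, map_add, hx, hy]
  | smul a x hx => rw [map_smul, vec_smul, vec_smul, map_smul, hx]

lemma conj_injective {κ ι : Type} {e : κ → ι} (he : Function.Injective e) {i₀ : ι}
    (hi : i₀ ∉ Set.range e) (k : ℕ) :
    Function.Injective fun h : FreeGroup κ =>
      FreeGroup.map e h * FreeGroup.of i₀ ^ (k + 1) * (FreeGroup.map e h)⁻¹ := by
  classical
  let T : Equiv.Perm (FreeGroup ι × ℤ) :=
    { toFun := fun x => (x.1, x.2 + if x.1 = 1 then 1 else 0)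
      invFun := fun x => (x.1, x.2 - if x.1 = 1 then 1 else 0)
      left_inv := fun x => by simp
      right_inv := fun x => by simp }
  let χ : FreeGroup ι →* Equiv.Perm (FreeGroup ι × ℤ) := FreeGroup.lift fun i =>
    if i = i₀ then T else Equiv.prodCongr (Equiv.mulLeft (FreeGroup.of i)) (Equiv.refl ℤ)
  let χ' : FreeGroup ι →* Equiv.Perm (FreeGroup ι × ℤ) :=
    { toFun := fun g => Equiv.prodCongr (Equiv.mulLeft g) (Equiv.refl ℤ)
      map_one' := by ext x <;> simp
      map_mul' := fun g h => by ext x <;> simp [mul_assoc] }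
  have h1 : χ.comp (FreeGroup.map e) = χ'.comp (FreeGroup.map e) := by
    refine FreeGroup.ext_hom _ _ fun x => ?_
    have : e x ≠ i₀ := fun h => hi ⟨x, h⟩
    simp [χ, χ', this]
  have h2 : ∀ h g n, χ (FreeGroup.map e h) (g, n) = (FreeGroup.map e h * g, n) := fun h g n => by
    have := DFunLike.congr_fun h1 h
    rw [MonoidHom.comp_apply, MonoidHom.comp_apply] at this
    rw [this]
    rfl
  have h3 : ∀ (m : ℕ) g n, χ (FreeGroup.of i₀ ^ m) (g, n)
      = (g, n + if g = 1 then (m : ℤ) else 0) := by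
    intro m
    induction m with
    | zero => simp
    | succ m ih =>
      intro g n
      have : χ (FreeGroup.of i₀) = T := by simp [χ]
      rw [pow_succ', map_mul, Equiv.Perm.mul_apply, ih, this]
      simp only [T, Equiv.coe_fn_mk]
      split_ifs <;> simp [add_assoc]
  intro h h' hh
  have h4 := congrArg (fun g => (χ g (FreeGroup.map e h, 0)).2) hh
  simp only [map_mul, Equiv.Perm.mul_apply, ← map_inv (FreeGroup.map e), h2, h3] at h4
  rw [← map_mul, ← map_mul, inv_mul_cancel, map_one, if_pos rfl] at h4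
  split_ifs at h4 with h5
  · have := FreeGroup.map_injective he (h5.trans (map_one _).symm)
    exact (inv_mul_eq_one.1 this).symm
  · omega

lemma good_pow {G : Type} [Group G] {U : L2 G ≃ₗᵢ[ℂ] L2 G} (hU : Good U) (N : ℕ) :
    Good (U ^ N) := by
  induction N with
  | zero => exact Good.refl
  | succ N ih => rw [pow_succ]; exact hU.trans ih

lemma norm_pow_sub_pow {G : Type} (U : L2 G ≃ₗᵢ[ℂ] L2 G) (E : BG G) (hE : ∀ ξ, ‖E ξ‖ = ‖ξ‖)
    (hc : ∀ ξ, U (E ξ) = E (U ξ)) (ξ : L2 G) (N : ℕ) :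
    ‖(U ^ N) ξ - (E ^ N) ξ‖ ≤ N * ‖U ξ - E ξ‖ := by
  have hc' : ∀ (N : ℕ) η, (U ^ N) (E η) = E ((U ^ N) η) := by
    intro N
    induction N with
    | zero => intro η; rfl
    | succ N ih =>
      intro η
      rw [pow_succ]
      change (U ^ N) (U (E η)) = E ((U ^ N) (U η))
      rw [hc, ih]
  induction N with
  | zero => simp
  | succ N ih =>
    have e : (U ^ (N + 1)) ξ - (E ^ (N + 1)) ξ
        = (U ^ N) (U ξ - E ξ) + E ((U ^ N) ξ - (E ^ N) ξ) := by
      rw [pow_succ, pow_succ', map_sub, map_sub, hc']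
      change (U ^ N) (U ξ) - E ((E ^ N) ξ) = _
      abel
    rw [e]
    refine (norm_add_le _ _).trans ?_
    rw [LinearIsometryEquiv.norm_map, hE, Nat.cast_succ, add_mul, one_mul]
    linarith

section

variable {ι : Type} {e : Fin 3 → ι} (he : Function.Injective e) {i₀ : ι}
  (hi : i₀ ∉ Set.range e)

include he hi

/-- The derivation used in the absorption lemma. -/
lemma exists_derivation [DecidableEq ι] (n : ℕ) (s : ℕ → ℝ) {ε : ℝ} (hε : 0 < ε) :
    ∃ (D : AG (FreeGroup ι) →ₗ[ℝ] AG (FreeGroup ι)) (C : ℝ) (L : ℕ) (w : FreeGroup (Fin 3)),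
      IsFlow D FreeGroup.norm C L ∧ (∀ i, i ≠ e 0 → D (og (FreeGroup.of i)) = 0) ∧
      (∀ k : ℕ, D (og (FreeGroup.of i₀ ^ k)) = 0 ∧ D (og (FreeGroup.of i₀ ^ k)⁻¹) = 0) ∧
      ‖vec (D (og (FreeGroup.of (e 0))))‖ ≤ ε ∧
      ‖vec (D (og (FreeGroup.map e w)) - Sg (FreeGroup.of i₀) n s * og (FreeGroup.map e w))‖
        ≤ ε := by
  set z : FreeGroup ι := FreeGroup.of i₀ with hz
  set j : FreeGroup (Fin 3) →* FreeGroup ι := FreeGroup.map e with hj
  set σ : ℝ := ∑ k ∈ range n, 2 * |s k| + 1 with hσ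
  have hσ0 : 0 < σ := by positivity
  obtain ⟨β, w, hβ, hb1, hb2, hd1, hd2⟩ := exists_beta (ε := ε / σ) (by positivity)
  let Ψ : AG (FreeGroup (Fin 3)) →ₗ[ℝ] AG (FreeGroup ι) :=
    linExt fun h => og (j h) * Sg z n s * og (j h)⁻¹
  have hΨ : ∀ h, Ψ (og h) = og (j h) * Sg z n s * og (j h)⁻¹ := fun h => linExt_og _ _
  have hΨ' : ∀ f, Ψ f = ∑ k ∈ range n, s k •
      (linExt (fun h => og (j h * z ^ (k + 1) * (j h)⁻¹)) f
        - linExt (fun h => og (j h * z ^ (k + 1) * (j h)⁻¹)⁻¹) f) := fun f => by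
    refine (lin_ext (T := ∑ k ∈ range n, s k •
      (linExt (fun h => og (j h * z ^ (k + 1) * (j h)⁻¹))
        - linExt (fun h => og (j h * z ^ (k + 1) * (j h)⁻¹)⁻¹))) (fun h => ?_) f).trans
      (by simp)
    rw [hΨ, Sg, Finset.mul_sum, Finset.sum_mul, LinearMap.sum_apply]
    refine Finset.sum_congr rfl fun k _ => ?_
    rw [LinearMap.smul_apply, LinearMap.sub_apply, linExt_og, linExt_og, mul_smul_comm,
      smul_mul_assoc, mul_sub, sub_mul, ← map_mul, ← map_mul, ← map_mul, ← map_mul]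
    congr 3
    group
  have hΨn : ∀ f, ‖vec (Ψ f)‖ ≤ σ * ‖vec f‖ := fun f => by
    rw [hΨ', vec_sum]
    refine (norm_sum_le _ _).trans ?_
    rw [hσ, add_mul, Finset.sum_mul, one_mul]
    refine le_add_of_le_of_nonneg (Finset.sum_le_sum fun k _ => ?_) (norm_nonneg _)
    rw [norm_vec_smul, vec_sub]
    have a1 := norm_vec_linExt (conj_injective he hi k) f
    have a2 := norm_vec_linExt (inv_injective.comp (conj_injective he hi k)) f
    have a3 := (norm_sub_le _ _).trans (le_of_eq (congrArg₂ (· + ·) a1 a2))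
    calc _ ≤ |s k| * (‖vec f‖ + ‖vec f‖) := mul_le_mul_of_nonneg_left a3 (abs_nonneg _)
      _ = _ := by ring
  have hΨm : ∀ h f, Ψ (og h * f) = og (j h) * Ψ f * og (j h)⁻¹ := fun h f => by
    refine lin_ext (S := Ψ.comp (LinearMap.mulLeft ℝ (og h)))
      (T := ((LinearMap.mulRight ℝ (og (j h)⁻¹)).comp (LinearMap.mulLeft ℝ (og (j h)))).comp Ψ)
      (fun k => ?_) f
    simp only [LinearMap.comp_apply, LinearMap.mulLeft_apply, LinearMap.mulRight_apply]
    rw [← map_mul, hΨ, hΨ, map_mul, mul_inv_rev, map_mul, map_mul]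
    simp only [mul_assoc]
  obtain ⟨κ, hκ, hv⟩ := exists_cocycle (V := AG (FreeGroup ι)) (fun g f => og g * f * og g⁻¹)
    (fun x => by rw [inv_one, map_one, one_mul, mul_one])
    (fun g h x => by rw [mul_inv_rev, map_mul, map_mul]; simp only [mul_assoc])
    (fun g x y => by rw [mul_add, add_mul])
    (fun i => if i = e 0 then Ψ (β (FreeGroup.of 0)) else 0)
  have hκz : ∀ k : ℕ, κ (z ^ k) = 0 := by
    intro k
    induction k with
    | zero => rw [pow_zero]; exact kappa_one hκ
    | succ k ih =>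
      rw [pow_succ, hκ, ih, hz, hv, if_neg fun h => hi ⟨0, h.symm⟩]
      simp
  have hκz' : ∀ k : ℕ, κ (z ^ k)⁻¹ = 0 := fun k => by rw [kappa_inv hκ, hκz]; simp
  have hκj : ∀ h, κ (j h) = Ψ (β h) := by
    have b1 : β 1 = 0 := by simpa [-MonoidAlgebra.of_apply] using hβ 1 1
    intro h
    induction h using FreeGroup.induction_on with
    | C1 => rw [map_one, kappa_one hκ, b1, map_zero]
    | of x =>
      rw [hj, FreeGroup.map.of, hv]
      fin_cases x
      · simp
      · simp [he.eq_iff, hb1]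
      · simp [he.eq_iff, hb2]
    | inv_of x ih =>
      have := hβ (FreeGroup.of x)⁻¹ (FreeGroup.of x)
      rw [inv_mul_cancel, b1] at this
      rw [map_inv j, kappa_inv hκ, ih, eq_neg_of_add_eq_zero_left this.symm, map_neg, hΨm,
        map_inv j]
    | mul g h hg hh => rw [map_mul, hκ, hβ, map_add, hΨm, hg, hh]
  obtain ⟨r₀, c₀, hbd⟩ := Bd.exists_bd FreeGroup.norm (Ψ (β (FreeGroup.of 0)))
  have hflow := isFlow_of_cocycle hκ (r₀ := r₀) (c₀ := c₀) (fun i => ?_) (fun i => ?_) hbd.nonneg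
    (fun i => ?_)
  · refine ⟨_, _, _, w, hflow, fun i h => ?_, fun k => ⟨?_, ?_⟩, ?_, ?_⟩
    · rw [linExt_og, hv, if_neg h, zero_mul]
    · rw [linExt_og, hκz, zero_mul]
    · rw [linExt_og, hκz', zero_mul]
    · rw [linExt_og, norm_vec_mul_og, hv, if_pos rfl]
      refine (hΨn _).trans ?_
      calc σ * ‖vec (β (FreeGroup.of 0))‖ ≤ σ * (ε / σ) := by gcongr
        _ = ε := by field_simp
    · have e1 : Sg z n s = Ψ 1 := by
        rw [← map_one (og (G := FreeGroup (Fin 3))), hΨ, map_one, inv_one, map_one, one_mul,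
          mul_one]
      rw [linExt_og, ← sub_mul, norm_vec_mul_og, hκj, e1, ← map_sub]
      refine (hΨn _).trans ?_
      calc σ * ‖vec (β w - 1)‖ ≤ σ * (ε / σ) := by gcongr
        _ = ε := by field_simp
  · rw [hv]
    split_ifs
    · refine lin_ext (S := JA.comp Ψ) (T := -Ψ) (fun h => ?_) _
      have : JA (Sg z n s) = -Sg z n s := by
        rw [Sg, map_sum, ← Finset.sum_neg_distrib]
        refine Finset.sum_congr rfl fun k _ => ?_
        rw [map_smul, map_sub, JA_og, JA_og, inv_inv, ← smul_neg, neg_sub]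
      rw [LinearMap.comp_apply, LinearMap.neg_apply, hΨ, JA_mul, JA_mul, JA_og, JA_og, this,
        inv_inv]
      noncomm_ring
    · simp
  · rw [hv]
    split_ifs
    · generalize β (FreeGroup.of 0) = f
      have hadd : ∀ (P : FreeGroup ι → Prop) (f f' : AG (FreeGroup ι)), Supp P f → Supp P f' →
          Supp P (f + f') := fun P f f' h h' g hg => by
        by_cases h1 : f.coeff g = 0
        · exact h' g (by simpa [h1] using hg)
        · exact h g h1
      induction f using MonoidAlgebra.induction_on with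
      | of h =>
        rw [hΨ']
        refine Supp.sum fun k _ => Supp.smul ?_ _
        rw [linExt_og, linExt_og, sub_eq_add_neg, ← neg_one_smul ℝ]
        exact hadd _ _ _ (supp_og ⟨_, _, hκz _, rfl⟩)
          (Supp.smul (supp_og ⟨j h, _, hκz' (k + 1), by group⟩) _)
      | add x y hx hy => rw [map_add]; exact hadd _ _ _ hx hy
      | smul a x hx => rw [map_smul]; exact hx.smul a
    · exact fun g hg => absurd rfl hg
  · rw [hv]
    split_ifs
    · exact hbd
    · exact Bd.zero _ hbd.nonneg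

/-- The absorption lemma, in the basis adapted to the flow. -/
lemma key_z {ε : ℝ} (hε : 0 < ε) :
    ∃ U : L2 (FreeGroup ι) ≃ₗᵢ[ℂ] L2 (FreeGroup ι), Good U ∧
      (∀ i, ‖U (dl (FreeGroup.of i)) - dl (FreeGroup.of i)‖ ≤ ε) ∧
      ∃ w : FreeGroup (Fin 3),
        ‖U (dl (FreeGroup.map e w)) - dl (FreeGroup.of i₀ * FreeGroup.map e w)‖ ≤ ε := by
  classical
  set z : FreeGroup ι := FreeGroup.of i₀ with hz
  obtain ⟨n, s, hs⟩ := exists_skew z (fun k h => by
    have := congrArg FreeGroup.norm h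
    rw [hz, FreeGroup.norm_of_pow] at this
    simp at this) (ε := ε / 4) (by positivity)
  obtain ⟨D, C, L, w, hD, h1, h2, h3, h4⟩ := exists_derivation he hi n s (ε := ε / 4)
    (by positivity)
  obtain ⟨t₀, ht₀, K, hK⟩ := hD.exists_good
  set Y := Lam (Sg z n s) with hY
  have hYs : star Y = -Y := by
    rw [hY, ← Lam_JA, ← map_neg, Sg, map_sum, ← Finset.sum_neg_distrib]
    congr 1
    refine Finset.sum_congr rfl fun k _ => ?_
    rw [map_smul, map_sub, JA_og, JA_og, inv_inv, ← smul_neg, neg_sub]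
  have hev : ∀ (c δ : ℝ), 0 < δ → ∀ᶠ N : ℕ in atTop, c * (1 / N) ≤ δ := fun c δ hδ => by
    have : Tendsto (fun N : ℕ => c * (1 / N : ℝ)) atTop (nhds (c * 0)) :=
      tendsto_one_div_atTop_nhds_zero_nat.const_mul c
    rw [mul_zero] at this
    exact this.eventually (ge_mem_nhds hδ)
  obtain ⟨N, ⟨⟨⟨⟨E, e1, e2, e3, e4⟩, n1⟩, n2⟩, n3⟩, n4⟩ :=
    (((((exp_steps hYs (ε := ε / 4) (by positivity)).and (hev 1 t₀ ht₀)).and
      (hev (K (FreeGroup.of (e 0))) (ε / 4) (by positivity))).and
      (hev (K (FreeGroup.map e w)) (ε / 4) (by positivity))).and (eventually_gt_atTop 0)).exists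
  have hN : (0 : ℝ) < N := by exact_mod_cast n4
  obtain ⟨U, hU, u1, u2⟩ := hK (1 / N) (by rw [abs_of_pos (by positivity)]; linarith)
  have hsm : ∀ ξ : L2 (FreeGroup ι), ‖((1 / N : ℝ) : ℂ) • ξ‖ = 1 / N * ‖ξ‖ := fun ξ => by
    rw [norm_smul, Complex.norm_real, Real.norm_of_nonneg (by positivity)]
  refine ⟨U ^ N, good_pow hU N, fun i => ?_, w, ?_⟩
  · have a1 := norm_pow_sub_pow U 1 (fun _ => rfl) (fun _ => rfl) (dl (FreeGroup.of i)) N
    rw [one_pow] at a1
    refine a1.trans ?_
    change N * ‖U (dl (FreeGroup.of i)) - dl (FreeGroup.of i)‖ ≤ ε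
    by_cases hi0 : i = e 0
    · subst hi0
      have a2 := norm_le_norm_sub_add (U (dl (FreeGroup.of (e 0))) - dl (FreeGroup.of (e 0)))
        (((1 / N : ℝ) : ℂ) • Lam (D (og (FreeGroup.of (e 0)))) (dl 1))
      rw [hsm] at a2
      have a3 : 1 / (N : ℝ) * ‖Lam (D (og (FreeGroup.of (e 0)))) (dl 1)‖ ≤ 1 / N * (ε / 4) :=
        mul_le_mul_of_nonneg_left h3 (by positivity)
      calc _ ≤ N * (K (FreeGroup.of (e 0)) * (1 / N) ^ 2 + 1 / N * (ε / 4)) := by
            gcongr
            linarith [u2 (FreeGroup.of (e 0))]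
        _ = K (FreeGroup.of (e 0)) * (1 / N) + ε / 4 := by field_simp
        _ ≤ ε := by linarith
    · have := u1 _ (h1 i hi0) (dl 1)
      rw [hU.one, lam_dl, mul_one] at this
      rw [this]
      simpa using hε.le
  · have hUY : Commute (U.toContinuousLinearEquiv : BG (FreeGroup ι)) Y := by
      rw [hY, Sg, map_sum]
      refine Commute.sum_right _ _ _ fun k _ => ?_
      rw [map_smul, real_smul_eq, map_sub, Lam_og, Lam_og]
      refine (Commute.sub_right ?_ ?_).smul_right _
      · exact ContinuousLinearMap.ext (u1 _ (h2 _).1)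
      · exact ContinuousLinearMap.ext (u1 _ (h2 _).2)
    have a1 := norm_pow_sub_pow U E (norm_of_star_mul e1)
      (fun ξ => congrArg (fun X : BG (FreeGroup ι) => X ξ) (e3 _ hUY)) (dl (FreeGroup.map e w)) N
    rw [e2] at a1
    have a2 : ‖exp Y (dl (FreeGroup.map e w)) - dl (z * FreeGroup.map e w)‖ ≤ ε / 4 := by
      have hm : InM (exp Y - lam z) :=
        InM.sub (fun S hS => Commute.exp_right (x := S) (Lam_mem _ S hS)) (InM.lam z)
      have b1 := hm.norm_apply_dl (FreeGroup.map e w)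
      rw [sub_apply, sub_apply, lam_dl, lam_dl, mul_one] at b1
      rw [b1]
      exact hs
    have a3 : ‖U (dl (FreeGroup.map e w)) - E (dl (FreeGroup.map e w))‖
        ≤ K (FreeGroup.map e w) * (1 / N) ^ 2 + 1 / N * (ε / 4) + ε / 4 * (1 / N) := by
      have b1 : U (dl (FreeGroup.map e w)) - E (dl (FreeGroup.map e w))
          = (U (dl (FreeGroup.map e w)) - dl (FreeGroup.map e w)
              - ((1 / N : ℝ) : ℂ) • Lam (D (og (FreeGroup.map e w))) (dl 1))
            + ((1 / N : ℝ) : ℂ) • vec (D (og (FreeGroup.map e w))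
              - Sg z n s * og (FreeGroup.map e w))
            - (E - 1 - ((1 / N : ℝ) : ℂ) • Y) (dl (FreeGroup.map e w)) := by
        rw [vec_sub, vec, vec, map_mul, Lam_og, mul_apply_eq_comp, lam_dl, mul_one, smul_sub,
          sub_apply, sub_apply, one_apply_eq_self, smul_apply, ← hY]
        abel
      rw [b1]
      refine (norm_sub_le _ _).trans (add_le_add ((norm_add_le _ _).trans
        (add_le_add (u2 _) ?_)) ?_)
      · rw [hsm]
        exact mul_le_mul_of_nonneg_left h4 (by positivity)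
      · refine (ContinuousLinearMap.le_opNorm _ _).trans ?_
        rw [norm_dl, mul_one]
        exact e4
    have a4 : N * ‖U (dl (FreeGroup.map e w)) - E (dl (FreeGroup.map e w))‖ ≤ 3 * (ε / 4) := by
      calc _ ≤ N * (K (FreeGroup.map e w) * (1 / N) ^ 2 + 1 / N * (ε / 4) + ε / 4 * (1 / N)) := by
            gcongr
        _ = K (FreeGroup.map e w) * (1 / N) + ε / 4 + ε / 4 := by field_simp
        _ ≤ _ := by linarith
    linarith [norm_sub_le_norm_sub_add_norm_sub ((U ^ N) (dl (FreeGroup.map e w)))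
      (exp Y (dl (FreeGroup.map e w))) (dl (z * FreeGroup.map e w))]

end

theorem keyProp {ι : Type} {e : Fin 3 → ι} (he : Function.Injective e) : KeyProp e := by
  classical
  intro i₀ hi ε hε
  obtain ⟨U, hU, h1, w, h2⟩ := key_z he hi hε
  let φ : FreeGroup ι → (FreeGroup ι →* FreeGroup ι) := fun y =>
    FreeGroup.lift fun i => if i = i₀ then FreeGroup.of i₀ * y else FreeGroup.of i
  have hφ0 : ∀ y, φ y (FreeGroup.of i₀) = FreeGroup.of i₀ * y := fun y => by simp [φ]
  have hφ1 : ∀ y i, i ≠ i₀ → φ y (FreeGroup.of i) = FreeGroup.of i := fun y i h => by simp [φ, h]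
  have hφj : ∀ y h, φ y (FreeGroup.map e h) = FreeGroup.map e h := fun y h => by
    have : (φ y).comp (FreeGroup.map e) = FreeGroup.map e :=
      FreeGroup.ext_hom _ _ fun x => hφ1 y _ fun h => hi ⟨x, h⟩
    exact DFunLike.congr_fun this h
  have hinv : ∀ v : FreeGroup (Fin 3),
      (φ (FreeGroup.map e v)).comp (φ (FreeGroup.map e v⁻¹)) = MonoidHom.id _ := fun v =>
    FreeGroup.ext_hom _ _ fun i => by
      by_cases h : i = i₀
      · subst h
        rw [MonoidHom.comp_apply, hφ0, map_mul, hφ0, hφj, mul_assoc, ← map_mul, mul_inv_cancel,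
          map_one, mul_one, MonoidHom.id_apply]
      · rw [MonoidHom.comp_apply, hφ1 _ _ h, hφ1 _ _ h, MonoidHom.id_apply]
  let θ : FreeGroup ι ≃* FreeGroup ι := MonoidHom.toMulEquiv (φ (FreeGroup.map e w⁻¹))
    (φ (FreeGroup.map e w)) (hinv w) (by simpa using hinv w⁻¹)
  have hθ : ∀ g, θ g = φ (FreeGroup.map e w⁻¹) g := fun _ => rfl
  have hP := good_perm θ
  have key : ∀ g g', ‖((perm θ.toEquiv).symm.trans (U.trans (perm θ.toEquiv))) (dl (θ g))
      - dl (θ g')‖ = ‖U (dl g) - dl g'‖ := fun g g' => by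
    have e1 : ∀ g, dl (θ g) = perm θ.toEquiv (dl g) := fun g => (perm_dl θ.toEquiv g).symm
    rw [e1, e1, LinearIsometryEquiv.trans_apply, LinearIsometryEquiv.trans_apply,
      LinearIsometryEquiv.symm_apply_apply, ← map_sub, LinearIsometryEquiv.norm_map]
  refine ⟨_, hP.symm.trans (hU.trans hP), fun i hi0 => ?_, w, ?_⟩
  · have := key (FreeGroup.of i) (FreeGroup.of i)
    rw [hθ, hφ1 _ _ hi0] at this
    exact this.trans_le (h1 i)
  · have := key (FreeGroup.map e w) (FreeGroup.of i₀ * FreeGroup.map e w)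
    rw [hθ, hθ, map_mul, hφj, hφ0, mul_assoc, ← map_mul, inv_mul_cancel, map_one, mul_one] at this
    exact this.trans_le h2

theorem exists_good_three {ι : Type} [Countable ι] {e : Fin 3 → ι} (he : Function.Injective e) :
    ∃ U : L2 (FreeGroup (Fin 3)) ≃ₗᵢ[ℂ] L2 (FreeGroup ι), Good U :=
  exists_good_of_key he (keyProp he)

theorem isomorphic_of_three {ι ι' : Type} [Countable ι] [Countable ι'] {e : Fin 3 → ι}
    {e' : Fin 3 → ι'} (he : Function.Injective e) (he' : Function.Injective e') :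
    GroupFactorsIsomorphic (FreeGroup ι) (FreeGroup ι') := by
  obtain ⟨U, hU⟩ := exists_good_three he
  obtain ⟨V, hV⟩ := exists_good_three he'
  exact (hU.symm.trans hV).isomorphic

end Vale.Agent.P086
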