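import Vale.Agent.P086.Gen

/-! The real group algebra, its representation on `ℓ²(G)`, and size bounds. -/

namespace Vale.Agent.P086

open Filter Topology
open scoped InnerProductSpace

variable {G : Type} [Group G]

abbrev AG (G : Type) : Type := MonoidAlgebra ℝ G

/-- Group elements inside the group algebra. -/
noncomputable abbrev og : G →* AG G := MonoidAlgebra.of ℝ G

lemma og_coeff_mul_left (g : G) (f : AG G) (h : G) : (og g * f).coeff h = f.coeff (g⁻¹ * h) := by
  simp

lemma og_coeff_mul_right (g : G) (f : AG G) (h : G) : (f * og g).coeff h = f.coeff (h * g⁻¹) := by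
  simp

open Classical in
lemma og_coeff (g h : G) : (og g).coeff h = if h = g then 1 else 0 := by
  simp [Finsupp.single_apply, eq_comm]

omit [Group G] in
/-- Linear extension of a function on the group. -/
noncomputable def linExt {V : Type} [AddCommGroup V] [Module ℝ V] (φ : G → V) : AG G →ₗ[ℝ] V :=
  (Finsupp.linearCombination ℝ φ).comp (MonoidAlgebra.coeffLinearEquiv ℝ).toLinearMap

lemma linExt_og {V : Type} [AddCommGroup V] [Module ℝ V] (φ : G → V) (g : G) :
    linExt φ (og g) = φ g := by
  simp [linExt]

lemma lin_ext {V : Type} [AddCommGroup V] [Module ℝ V] {S T : AG G →ₗ[ℝ] V}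
    (h : ∀ g, S (og g) = T (og g)) (f : AG G) : S f = T f := by
  induction f using MonoidAlgebra.induction_on with
  | of g => exact h g
  | add x y hx hy => rw [map_add, map_add, hx, hy]
  | smul r x hx => rw [map_smul, map_smul, hx]

/-- The regular representation of the group algebra. -/
noncomputable def Lam : AG G →ₐ[ℝ] BG G := MonoidAlgebra.lift ℝ (BG G) G lam

lemma Lam_og (g : G) : Lam (og g) = lam g := MonoidAlgebra.lift_of _ _

lemma Lam_mem (f : AG G) : InM (Lam f) := by
  induction f using MonoidAlgebra.induction_on with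
  | of g => rw [Lam_og]; exact InM.lam g
  | add x y hx hy => rw [map_add]; exact hx.add hy
  | smul r x hx => rw [map_smul]; exact hx.smul_real r

lemma Lam_dl (f : AG G) (h : G) : Lam f (dl 1) h = (f.coeff h : ℂ) := by
  classical
  induction f using MonoidAlgebra.induction_on with
  | of g =>
    rw [Lam_og, lam_dl, mul_one, dl_apply, og_coeff]
    split_ifs <;> simp
  | add x y hx hy => simp [hx, hy]
  | smul r x hx => simp [hx]

/-- The antipode. -/
noncomputable def JA : AG G →ₗ[ℝ] AG G := linExt fun g => og g⁻¹

lemma JA_og (g : G) : JA (og g) = og g⁻¹ := linExt_og _ _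

omit [Group G] in
lemma real_smul_vec (r : ℝ) (ξ : L2 G) : r • ξ = (r : ℂ) • ξ :=
  lp.ext (funext fun g => by rw [lp.coeFn_smul, lp.coeFn_smul]; simp)

omit [Group G] in
lemma real_smul_eq (r : ℝ) (T : BG G) : r • T = (r : ℂ) • T :=
  ContinuousLinearMap.ext fun ξ => real_smul_vec r (T ξ)

omit [Group G] in
lemma star_smul_real (r : ℝ) (T : BG G) : star (r • T) = r • star T := by
  rw [real_smul_eq, real_smul_eq, star_smul, Complex.star_def, Complex.conj_ofReal]

lemma Lam_JA (f : AG G) : Lam (JA f) = star (Lam f) := by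
  induction f using MonoidAlgebra.induction_on with
  | of g => rw [JA_og, Lam_og, Lam_og, star_lam]
  | add x y hx hy => rw [map_add, map_add, map_add, star_add, hx, hy]
  | smul r x hx => rw [map_smul, map_smul, map_smul, star_smul_real, hx]

lemma Lam_injective : Function.Injective (Lam : AG G → BG G) := fun f f' h => by
  ext g
  have := Lam_dl f g
  rw [h, Lam_dl] at this
  exact Complex.ofReal_injective this.symm

lemma JA_mul (f f' : AG G) : JA (f * f') = JA f' * JA f :=
  Lam_injective (by rw [Lam_JA, map_mul, map_mul, Lam_JA, Lam_JA, star_mul])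

lemma JA_coeff (f : AG G) (g : G) : (JA f).coeff g = f.coeff g⁻¹ := by
  have := (Lam_mem f).star_apply g
  rw [← Lam_JA, Lam_dl, Lam_dl] at this
  simpa using this

lemma coeff_conj (f : AG G) (g h : G) : (og g * f * og g⁻¹).coeff (g * h * g⁻¹) = f.coeff h := by
  rw [og_coeff_mul_right, og_coeff_mul_left]
  congr 1
  group

/-- `f` is a combination of group elements of length at most `r` with total weight at most `c`. -/
inductive Bd (len : G → ℕ) (r : ℕ) : ℝ → AG G → Prop
  | zero (c : ℝ) (hc : 0 ≤ c) : Bd len r c 0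
  | cons (c : ℝ) (f : AG G) (g : G) (a : ℝ) (hg : len g ≤ r) (hf : Bd len r c f) :
      Bd len r (c + |a|) (f + a • og g)

namespace Bd

variable {len : G → ℕ} {r r' : ℕ} {c c' : ℝ} {f f' : AG G}

lemma nonneg (h : Bd len r c f) : 0 ≤ c := by
  induction h with
  | zero c hc => exact hc
  | cons c f g a _ _ ih => positivity

lemma mono (h : Bd len r c f) (hr : r ≤ r') (hc : c ≤ c') : Bd len r' c' f := by
  induction h generalizing c' with
  | zero c h0 => exact zero _ (h0.trans hc)
  | cons c f g a hg _ ih =>
    have := cons (c' - |a|) f g a (hg.trans hr) (ih (by linarith))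
    rwa [sub_add_cancel] at this

lemma add (h : Bd len r c f) (h' : Bd len r c' f') : Bd len r (c + c') (f + f') := by
  induction h' with
  | zero c' h0 => rw [add_zero]; exact h.mono le_rfl (by linarith)
  | cons c' f' g a hg _ ih =>
    rw [← add_assoc, ← add_assoc]
    exact cons _ _ g a hg ih

lemma smul (a : ℝ) (h : Bd len r c f) : Bd len r (|a| * c) (a • f) := by
  induction h with
  | zero c h0 => rw [smul_zero]; exact zero _ (by positivity)
  | cons c f g b hg _ ih =>
    rw [smul_add, smul_smul, mul_add, ← abs_mul]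
    exact cons _ _ g _ hg ih

lemma single {g : G} (hg : len g ≤ r) : Bd len r 1 (og g) := by
  simpa using cons 0 0 g 1 hg (zero 0 le_rfl)

lemma exists_bd (len : G → ℕ) (f : AG G) : ∃ r c, Bd len r c f := by
  induction f using MonoidAlgebra.induction_on with
  | of g => exact ⟨_, _, single le_rfl⟩
  | add x y hx hy =>
    obtain ⟨r, c, h⟩ := hx
    obtain ⟨r', c', h'⟩ := hy
    exact ⟨max r r', c + c', (h.mono (le_max_left _ _) le_rfl).add
      (h'.mono (le_max_right _ _) le_rfl)⟩
  | smul a x hx =>
    obtain ⟨r, c, h⟩ := hx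
    exact ⟨r, _, h.smul a⟩

lemma map (T : AG G →ₗ[ℝ] AG G) {b : ℝ} (hb : 0 ≤ b)
    (hT : ∀ g, len g ≤ r → Bd len r' b (T (og g))) (h : Bd len r c f) :
    Bd len r' (c * b) (T f) := by
  induction h with
  | zero c h0 => rw [map_zero]; exact zero _ (by positivity)
  | cons c f g a hg _ ih =>
    rw [map_add, map_smul, add_mul]
    exact ih.add ((hT g hg).smul a)

lemma norm_le {V : Type} [NormedAddCommGroup V] [NormedSpace ℝ V] (T : AG G →ₗ[ℝ] V) {b : ℝ}
    (hb : 0 ≤ b) (hT : ∀ g, len g ≤ r → ‖T (og g)‖ ≤ b) (h : Bd len r c f) :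
    ‖T f‖ ≤ c * b := by
  induction h with
  | zero c h0 => rw [map_zero, norm_zero]; positivity
  | cons c f g a hg _ ih =>
    rw [map_add, map_smul, add_mul]
    refine (norm_add_le _ _).trans (add_le_add ih ?_)
    rw [norm_smul, Real.norm_eq_abs]
    exact mul_le_mul_of_nonneg_left (hT g hg) (abs_nonneg a)

lemma norm_Lam (h : Bd len r c f) : ‖Lam f‖ ≤ c := by
  have := h.norm_le (Lam (G := G)).toLinearMap zero_le_one fun g _ => by
    rw [AlgHom.toLinearMap_apply, Lam_og]
    exact ContinuousLinearMap.opNorm_le_bound _ zero_le_one fun ξ => by rw [norm_lam, one_mul]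
  simpa using this

lemma mul_mul (hlen : ∀ g h, len (g * h) ≤ len g + len h) (g k : G) (h : Bd len r c f) :
    Bd len (len g + r + len k) c (og g * f * og k) := by
  have := h.map ((LinearMap.mulRight ℝ (og k)).comp (LinearMap.mulLeft ℝ (og g))) zero_le_one
    (r' := len g + r + len k) fun x hx => by
      simp only [LinearMap.comp_apply, LinearMap.mulLeft_apply, LinearMap.mulRight_apply,
        ← map_mul]
      refine single ?_
      have := hlen (g * x) k
      have := hlen g x
      omega
  simpa using this

end Bd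

end Vale.Agent.P086
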