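import Vale.Agent.P086.Defs

/-! Basic facts about `ℓ²(G)`, the regular representations and the group von Neumann algebra. -/

namespace Vale.Agent.P086

open Filter Topology
open scoped InnerProductSpace

abbrev BG (G : Type) : Type := L2 G →L[ℂ] L2 G

section NoGroup

variable {G K : Type}

open Classical in
/-- The basis vector `δ_g`. -/
noncomputable def dl (g : G) : L2 G := lp.single 2 g 1

lemma inner_dl (g : G) (ξ : L2 G) : ⟪dl g, ξ⟫_ℂ = ξ g := by
  classical
  unfold dl
  rw [lp.inner_single_left]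
  simp

open Classical in
lemma dl_apply (g h : G) : dl g h = if h = g then 1 else 0 := by
  unfold dl
  rw [lp.single_apply, Pi.single_apply]

lemma dl_self (g : G) : dl g g = 1 := by simp [dl_apply]

lemma dl_ne {g h : G} (hne : h ≠ g) : dl g h = 0 := by simp [dl_apply, hne]

lemma orthonormal_dl : Orthonormal ℂ (dl : G → L2 G) := by
  classical
  rw [orthonormal_iff_ite]
  intro i j
  rw [inner_dl, dl_apply]

lemma norm_dl (g : G) : ‖dl g‖ = 1 := orthonormal_dl.1 g

lemma dense_dl : ⊤ ≤ (Submodule.span ℂ (Set.range (dl : G → L2 G))).topologicalClosure := by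
  rw [top_le_iff, Submodule.topologicalClosure_eq_top_iff, Submodule.eq_bot_iff]
  intro ξ hξ
  refine lp.ext (funext fun g => ?_)
  rw [← inner_dl]
  exact Submodule.inner_right_of_mem_orthogonal (Submodule.subset_span (Set.mem_range_self g)) hξ

lemma dense_span_of_le {E : Type} [NormedAddCommGroup E] [InnerProductSpace ℂ E] {v : K → E}
    (h : ⊤ ≤ (Submodule.span ℂ (Set.range v)).topologicalClosure) :
    Dense (Submodule.span ℂ (Set.range v) : Set E) := by
  rw [top_le_iff] at h
  exact Submodule.dense_iff_topologicalClosure_eq_top.2 h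

lemma clm_ext {E : Type} [NormedAddCommGroup E] [InnerProductSpace ℂ E] {S T : L2 G →L[ℂ] E}
    (h : ∀ g, S (dl g) = T (dl g)) : S = T :=
  ContinuousLinearMap.ext_on (dense_span_of_le dense_dl) (by rintro _ ⟨g, rfl⟩; exact h g)

lemma clm_ext_inner {S T : BG G} (h : ∀ g k, ⟪dl k, S (dl g)⟫_ℂ = ⟪dl k, T (dl g)⟫_ℂ) : S = T :=
  clm_ext fun g => lp.ext (funext fun k => by rw [← inner_dl, ← inner_dl, h])

/-- The unitary attached to an orthonormal basis. -/
noncomputable def isoOf {E : Type} [NormedAddCommGroup E] [InnerProductSpace ℂ E] [CompleteSpace E]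
    {v : K → E} (hv : Orthonormal ℂ v)
    (hsp : ⊤ ≤ (Submodule.span ℂ (Set.range v)).topologicalClosure) : L2 K ≃ₗᵢ[ℂ] E :=
  (HilbertBasis.mk hv hsp).repr.symm

lemma isoOf_dl {E : Type} [NormedAddCommGroup E] [InnerProductSpace ℂ E] [CompleteSpace E]
    {v : K → E} (hv : Orthonormal ℂ v)
    (hsp : ⊤ ≤ (Submodule.span ℂ (Set.range v)).topologicalClosure) (k : K) :
    isoOf hv hsp (dl k) = v k := by
  classical
  unfold isoOf dl
  rw [HilbertBasis.repr_symm_single, HilbertBasis.coe_mk]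

/-- The unitary induced by a bijection. -/
noncomputable def perm (e : G ≃ K) : L2 G ≃ₗᵢ[ℂ] L2 K :=
  isoOf (v := fun g => dl (e g)) (orthonormal_dl.comp e e.injective) (by
    have : Set.range (fun g => dl (e g)) = Set.range (dl : K → L2 K) :=
      e.surjective.range_comp dl
    rw [this]
    exact dense_dl)

lemma perm_dl (e : G ≃ K) (g : G) : perm e (dl g) = dl (e g) := isoOf_dl _ _ g

lemma perm_apply (e : G ≃ K) (ξ : L2 G) (k : K) : perm e ξ k = ξ (e.symm k) := by
  rw [← inner_dl, ← inner_dl, ← (perm e).inner_map_map, perm_dl, e.apply_symm_apply]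

end NoGroup

variable {G K : Type} [Group G] [Group K]

/-- The left regular representation. -/
noncomputable def lam : G →* BG G where
  toFun g := (perm (Equiv.mulLeft g)).toContinuousLinearEquiv
  map_one' := clm_ext fun h => by simp [perm_dl]
  map_mul' g h := clm_ext fun k => by simp [perm_dl]

lemma lam_dl (g h : G) : lam g (dl h) = dl (g * h) := perm_dl _ _

lemma lam_apply (g : G) (ξ : L2 G) (h : G) : lam g ξ h = ξ (g⁻¹ * h) := perm_apply _ _ _

lemma norm_lam (g : G) (ξ : L2 G) : ‖lam g ξ‖ = ‖ξ‖ := (perm (Equiv.mulLeft g)).norm_map ξ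

lemma star_lam (g : G) : star (lam g) = lam g⁻¹ := by
  refine clm_ext_inner fun h k => ?_
  rw [ContinuousLinearMap.star_eq_adjoint, ContinuousLinearMap.adjoint_inner_right, lam_dl,
    inner_dl, inner_dl, lam_apply, inv_inv]

/-- Right translation. -/
noncomputable def rho (g : G) : BG G := (perm (Equiv.mulRight g)).toContinuousLinearEquiv

lemma rho_dl (g h : G) : rho g (dl h) = dl (h * g) := perm_dl _ _

lemma norm_rho (g : G) (ξ : L2 G) : ‖rho g ξ‖ = ‖ξ‖ := (perm (Equiv.mulRight g)).norm_map ξ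

lemma rho_apply (g : G) (ξ : L2 G) (h : G) : rho g ξ h = ξ (h * g⁻¹) := perm_apply _ _ _

lemma rho_comm (g h : G) : rho g * lam h = lam h * rho g :=
  clm_ext fun k => by simp [rho_dl, lam_dl, mul_assoc]

/-- Membership in `λ(G)''`. -/
def InM (T : BG G) : Prop := ∀ S : BG G, (∀ g : G, S * lam g = lam g * S) → S * T = T * S

lemma leftRegular_eq : leftRegular G = Set.range (lam : G → BG G) := by
  ext T
  constructor
  · rintro ⟨g, hg⟩
    exact ⟨g, ContinuousLinearMap.ext fun ξ => lp.ext (funext fun h => by rw [lam_apply, hg])⟩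
  · rintro ⟨g, rfl⟩
    exact ⟨g, lam_apply g⟩

lemma comm_star {S : BG G} (hS : ∀ g : G, S * lam g = lam g * S) (g : G) :
    star S * lam g = lam g * star S := by
  have := congrArg star (hS g⁻¹)
  rw [star_mul, star_mul, star_lam, inv_inv] at this
  exact this.symm

lemma mem_doubleCommutant (T : BG G) : T ∈ doubleCommutant (leftRegular G) ↔ InM T := by
  unfold doubleCommutant
  rw [StarSubalgebra.mem_centralizer_iff, leftRegular_eq]
  constructor
  · intro h S hS
    refine (h S ?_).1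
    rintro _ ⟨g, rfl⟩
    exact (hS g).symm
  · intro h S hS
    have h1 : ∀ g : G, S * lam g = lam g * S := fun g => (hS _ ⟨g, rfl⟩).symm
    exact ⟨h S h1, h _ (comm_star h1)⟩

lemma InM.lam (g : G) : InM (lam g) := fun _ hS => hS g

lemma InM.one : InM (1 : BG G) := fun _ _ => by simp

lemma InM.zero : InM (0 : BG G) := fun _ _ => by simp

lemma InM.add {S T : BG G} (hS : InM S) (hT : InM T) : InM (S + T) := fun R hR => by
  rw [mul_add, add_mul, hS R hR, hT R hR]

lemma InM.sub {S T : BG G} (hS : InM S) (hT : InM T) : InM (S - T) := fun R hR => by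
  rw [mul_sub, sub_mul, hS R hR, hT R hR]

lemma InM.mul {S T : BG G} (hS : InM S) (hT : InM T) : InM (S * T) := fun R hR => by
  rw [← mul_assoc, hS R hR, mul_assoc, hT R hR, mul_assoc]

lemma InM.smul {T : BG G} (c : ℂ) (hT : InM T) : InM (c • T) := fun R hR => by
  rw [mul_smul_comm, smul_mul_assoc, hT R hR]

lemma InM.smul_real {T : BG G} (c : ℝ) (hT : InM T) : InM (c • T) := fun R hR => by
  rw [mul_smul_comm, smul_mul_assoc, hT R hR]

lemma InM.star {T : BG G} (hT : InM T) : InM (star T) := fun R hR => by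
  have := congrArg Star.star (hT _ (comm_star hR))
  rw [star_mul, star_mul, star_star] at this
  exact this.symm

lemma InM.sum {ι : Type} (s : Finset ι) {T : ι → BG G} (hT : ∀ i ∈ s, InM (T i)) :
    InM (∑ i ∈ s, T i) :=
  Finset.sum_induction T InM (fun _ _ => InM.add) InM.zero hT

/-- Strong limits of elements of `M` lie in `M`. -/
lemma InM.of_tendsto {ι : Type} {l : Filter ι} [l.NeBot] {T : ι → BG G} {T₀ : BG G}
    (hT : ∀ i, InM (T i)) (h : ∀ ξ, Tendsto (fun i => T i ξ) l (𝓝 (T₀ ξ))) : InM T₀ := by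
  intro R hR
  ext1 ξ
  have h1 : Tendsto (fun i => R (T i ξ)) l (𝓝 (R (T₀ ξ))) := (R.continuous.tendsto _).comp (h ξ)
  have h2 : (fun i => R (T i ξ)) = fun i => T i (R ξ) := funext fun i =>
    congrArg (fun X : BG G => X ξ) (hT i R hR)
  rw [h2] at h1
  exact tendsto_nhds_unique h1 (h _)

lemma InM.apply_dl {T : BG G} (hT : InM T) (k : G) : T (dl k) = rho k (T (dl 1)) := by
  have := congrArg (fun X : BG G => X (dl 1)) (hT _ (rho_comm k))
  simpa [rho_dl] using this.symm

lemma InM.norm_apply_dl {T : BG G} (hT : InM T) (k : G) : ‖T (dl k)‖ = ‖T (dl 1)‖ := by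
  rw [hT.apply_dl, norm_rho]

lemma InM.star_apply {T : BG G} (hT : InM T) (g : G) :
    (Star.star T) (dl 1) g = Star.star (T (dl 1) g⁻¹) := by
  rw [← inner_dl, ContinuousLinearMap.star_eq_adjoint, ContinuousLinearMap.adjoint_inner_right,
    ← inner_conj_symm, inner_dl, hT.apply_dl, rho_apply, one_mul]
  rfl

/-- The trace property. -/
lemma InM.norm_star_dl {T : BG G} (hT : InM T) : ‖(Star.star T) (dl 1)‖ = ‖T (dl 1)‖ := by
  have : (Star.star T) (dl 1) = Star.star (perm (Equiv.inv G) (T (dl 1))) := by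
    refine lp.ext (funext fun g => ?_)
    rw [hT.star_apply, lp.star_apply, perm_apply]
    rfl
  rw [this, norm_star, LinearIsometryEquiv.norm_map]

lemma InM.eq_of_dl {S T : BG G} (hS : InM S) (hT : InM T) (h : S (dl 1) = T (dl 1)) : S = T :=
  clm_ext fun g => by rw [hS.apply_dl, hT.apply_dl, h]

/-- Unitary elements of `M`. -/
structure UM (u : BG G) : Prop where
  mem : InM u
  left : star u * u = 1
  right : u * star u = 1

omit [Group G] in
lemma norm_of_star_mul {u : BG G} (h : star u * u = 1) (ξ : L2 G) : ‖u ξ‖ = ‖ξ‖ := by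
  have h1 : ⟪u ξ, u ξ⟫_ℂ = ⟪ξ, ξ⟫_ℂ := by
    rw [← ContinuousLinearMap.adjoint_inner_right, ← ContinuousLinearMap.star_eq_adjoint]
    exact congrArg (fun X : BG G => ⟪ξ, X ξ⟫_ℂ) h
  rw [inner_self_eq_norm_sq_to_K, inner_self_eq_norm_sq_to_K] at h1
  have h2 : ‖u ξ‖ ^ 2 = ‖ξ‖ ^ 2 := by exact_mod_cast h1
  exact (pow_left_inj₀ (norm_nonneg _) (norm_nonneg _) two_ne_zero).1 h2

lemma UM.norm {u : BG G} (hu : UM u) (ξ : L2 G) : ‖u ξ‖ = ‖ξ‖ := norm_of_star_mul hu.left ξ

lemma UM.star {u : BG G} (hu : UM u) : UM (star u) :=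
  ⟨hu.mem.star, by rw [star_star]; exact hu.right, by rw [star_star]; exact hu.left⟩

lemma UM.norm_mul_dl {u T : BG G} (hu : UM u) (hT : InM T) :
    ‖T (u (dl 1))‖ = ‖T (dl 1)‖ := by
  have h1 := (hT.mul hu.mem).norm_star_dl
  rw [star_mul] at h1
  have h2 : ‖(Star.star u * Star.star T) (dl 1)‖ = ‖(Star.star T) (dl 1)‖ := hu.star.norm _
  rw [← hT.norm_star_dl, ← h2, h1]
  rfl

/-- Unitary representations with values in `M`. -/
structure IsRep (π : K →* BG G) : Prop where
  mem : ∀ k, InM (π k)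
  star : ∀ k, star (π k) = π k⁻¹

lemma IsRep.um {π : K →* BG G} (h : IsRep π) (k : K) : UM (π k) :=
  ⟨h.mem k, by rw [h.star, ← map_mul, inv_mul_cancel, map_one],
    by rw [h.star, ← map_mul, mul_inv_cancel, map_one]⟩

lemma isRep_lam : IsRep (lam : G →* BG G) := ⟨InM.lam, star_lam⟩

lemma IsRep.comp {K' : Type} [Group K'] {π : K →* BG G} (h : IsRep π) (f : K' →* K) :
    IsRep (π.comp f) :=
  ⟨fun k => h.mem _, fun k => by simp [h.star]⟩

lemma IsRep.dist_mul {π π' : K →* BG G} (h : IsRep π) (h' : IsRep π') (k l : K) :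
    ‖π (k * l) (dl 1) - π' (k * l) (dl 1)‖
      ≤ ‖π k (dl 1) - π' k (dl 1)‖ + ‖π l (dl 1) - π' l (dl 1)‖ := by
  have e : π (k * l) (dl 1) - π' (k * l) (dl 1)
      = (π k - π' k) (π' l (dl 1)) + π k (π l (dl 1) - π' l (dl 1)) := by
    simp
  rw [e]
  refine (norm_add_le _ _).trans (le_of_eq ?_)
  rw [(h'.um l).norm_mul_dl ((h.mem k).sub (h'.mem k)), (h.um k).norm]
  rfl

lemma IsRep.dist_inv {π π' : K →* BG G} (h : IsRep π) (h' : IsRep π') (k : K) :
    ‖π k⁻¹ (dl 1) - π' k⁻¹ (dl 1)‖ = ‖π k (dl 1) - π' k (dl 1)‖ := by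
  have := ((h.mem k).sub (h'.mem k)).norm_star_dl
  rw [star_sub, h.star, h'.star] at this
  exact this

lemma IsRep.dist_free {ι : Type} [DecidableEq ι] {π π' : FreeGroup ι →* BG G} (h : IsRep π)
    (h' : IsRep π') {ε : ℝ}
    (hε : ∀ i, ‖π (FreeGroup.of i) (dl 1) - π' (FreeGroup.of i) (dl 1)‖ ≤ ε) (k : FreeGroup ι) :
    ‖π k (dl 1) - π' k (dl 1)‖ ≤ k.norm * ε := by
  have key : ∀ L : List (ι × Bool),
      ‖π (FreeGroup.mk L) (dl 1) - π' (FreeGroup.mk L) (dl 1)‖ ≤ L.length * ε := by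
    intro L
    induction L with
    | nil => simp [← FreeGroup.one_eq_mk]
    | cons x L ih =>
      have e : FreeGroup.mk (x :: L) = FreeGroup.mk [x] * FreeGroup.mk L := by
        rw [FreeGroup.mul_mk]; rfl
      have hx : ‖π (FreeGroup.mk [x]) (dl 1) - π' (FreeGroup.mk [x]) (dl 1)‖ ≤ ε := by
        obtain ⟨i, _ | _⟩ := x
        · have : FreeGroup.mk [(i, false)] = (FreeGroup.of i)⁻¹ := rfl
          rw [this, h.dist_inv h']
          exact hε i
        · exact hε i
      rw [e]
      refine (h.dist_mul h' _ _).trans ?_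
      simp only [List.length_cons, Nat.cast_add, Nat.cast_one]
      linarith
  have := key k.toWord
  rwa [FreeGroup.mk_toWord] at this

end Vale.Agent.P086
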