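import Vale.Agent.P086.Alg

/-! Trace-preserving polynomial derivations of the group algebra exponentiate to
automorphisms of the group von Neumann algebra. -/

namespace Vale.Agent.P086

open Filter Topology Finset
open scoped InnerProductSpace Nat

variable {G : Type} [Group G]

/-- Trace-preserving `*`-derivations of linear growth. -/
structure IsFlow (D : AG G →ₗ[ℝ] AG G) (len : G → ℕ) (C : ℝ) (L : ℕ) : Prop where
  leib : ∀ f f', D (f * f') = D f * f' + f * D f'
  star : ∀ f, D (JA f) = JA (D f)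
  trace : ∀ f, (D f).coeff 1 = 0
  hC : 0 ≤ C
  hL : 1 ≤ L
  bd : ∀ r g, len g ≤ r → Bd len (r + L) (C * r) (D (og g))

/-- Terms of the exponential series. -/
noncomputable def term (D : AG G →ₗ[ℝ] AG G) (t : ℝ) (f : AG G) (k : ℕ) : BG G :=
  ((t ^ k / k ! : ℝ) : ℂ) • Lam (D^[k] f)

/-- The exponential series. -/
noncomputable def flow (D : AG G →ₗ[ℝ] AG G) (t : ℝ) (f : AG G) : BG G := ∑' k, term D t f k

namespace IsFlow

variable {D : AG G →ₗ[ℝ] AG G} {len : G → ℕ} {C : ℝ} {L : ℕ} (h : IsFlow D len C L)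

include h

lemma iter_mul (n : ℕ) (a b : AG G) :
    D^[n] (a * b) = ∑ ij ∈ antidiagonal n, Nat.choose n ij.1 • (D^[ij.1] a * D^[ij.2] b) := by
  induction n with
  | zero => simp
  | succ n ih =>
    rw [sum_antidiagonal_choose_succ_nsmul (M := AG G) (fun i j => D^[i] a * D^[j] b) n]
    simp only [Function.iterate_succ_apply', ih, map_sum, map_nsmul, h.leib, smul_add,
      sum_add_distrib]
    rw [add_comm]
    congr 1
    refine sum_congr rfl fun ⟨i, j⟩ hij ↦ ?_
    rw [n.choose_symm_of_eq_add (mem_antidiagonal.1 hij).symm]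

lemma iter_star (n : ℕ) (f : AG G) : D^[n] (JA f) = JA (D^[n] f) := by
  induction n with
  | zero => rfl
  | succ n ih => rw [Function.iterate_succ_apply', Function.iterate_succ_apply', ih, h.star]

lemma iter_bd {r : ℕ} {c : ℝ} {f : AG G} (hf : Bd len r c f) (k : ℕ) :
    Bd len (r + k * L) (c * (C * L) ^ k * ((r + 1).ascFactorial k : ℕ)) (D^[k] f) := by
  induction k with
  | zero => simpa using hf
  | succ k ih =>
    have hC := h.hC
    have hc := hf.nonneg
    have hL : (1 : ℝ) ≤ L := by exact_mod_cast h.hL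
    rw [Function.iterate_succ_apply']
    refine (ih.map D (b := C * ((r + k * L : ℕ) : ℝ)) (by positivity)
      fun g hg => h.bd _ g hg).mono (le_of_eq (by ring)) ?_
    rw [Nat.ascFactorial_succ]
    push_cast
    have h1 : (r : ℝ) + k * L ≤ L * (r + 1 + k) := by
      have : (0 : ℝ) ≤ r := Nat.cast_nonneg _
      nlinarith
    calc c * (C * L) ^ k * ((r + 1).ascFactorial k : ℕ) * (C * (r + k * L))
        ≤ c * (C * L) ^ k * ((r + 1).ascFactorial k : ℕ) * (C * (L * (r + 1 + k))) := by gcongr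
      _ = _ := by ring

lemma norm_term_le {r : ℕ} {c : ℝ} {f : AG G} (hf : Bd len r c f) (t : ℝ) (k : ℕ) :
    ‖term D t f k‖ ≤ c * 2 ^ r * (2 * C * L * |t|) ^ k := by
  have hC := h.hC
  have hc := hf.nonneg
  have h1 := (h.iter_bd hf k).norm_Lam
  rw [Nat.ascFactorial_eq_factorial_mul_choose] at h1
  have h2 : (((r + k).choose k : ℕ) : ℝ) ≤ 2 ^ (r + k) := by
    exact_mod_cast Nat.choose_le_two_pow _ _
  have h3 : (0 : ℝ) < k ! := by exact_mod_cast k.factorial_pos
  rw [term, norm_smul, Complex.norm_real, Real.norm_eq_abs, abs_div, abs_pow, abs_of_pos h3]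
  push_cast at h1
  calc |t| ^ k / k ! * ‖Lam (D^[k] f)‖
      ≤ |t| ^ k / k ! * (c * (C * L) ^ k * (k ! * 2 ^ (r + k))) := by
        gcongr
        exact h1.trans (by gcongr)
    _ = c * 2 ^ r * (2 * C * L * |t|) ^ k := by
        field_simp
        ring

variable {t : ℝ} (ht : 2 * C * L * |t| ≤ 1 / 2)

include ht

lemma summable_norm_term (f : AG G) : Summable fun k => ‖term D t f k‖ := by
  obtain ⟨r, c, hf⟩ := Bd.exists_bd len f
  have hC := h.hC
  refine Summable.of_nonneg_of_le (fun _ => norm_nonneg _) (h.norm_term_le hf t) ?_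
  exact (summable_geometric_of_lt_one (by positivity) (by linarith)).mul_left _

lemma hasSum_term (f : AG G) : HasSum (term D t f) (flow D t f) :=
  (h.summable_norm_term ht f).of_norm.hasSum

lemma flow_mul (f f' : AG G) : flow D t (f * f') = flow D t f * flow D t f' := by
  rw [flow, flow, flow, tsum_mul_tsum_eq_tsum_sum_antidiagonal_of_summable_norm
    (h.summable_norm_term ht f) (h.summable_norm_term ht f')]
  refine tsum_congr fun n => ?_
  rw [term, h.iter_mul, map_sum, Finset.smul_sum]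
  refine sum_congr rfl fun ⟨i, j⟩ hij ↦ ?_
  obtain rfl := mem_antidiagonal.1 hij
  rw [term, term, map_nsmul, map_mul, smul_mul_smul_comm, ← Nat.cast_smul_eq_nsmul ℂ, smul_smul]
  congr 1
  have h1 : (((i + j).choose i * i ! * j ! : ℕ) : ℂ) = ((i + j)! : ℕ) := by
    rw [add_comm i j, ← Nat.add_choose_mul_factorial_mul_factorial j i]
    push_cast
    ring
  have h2 : ((i ! : ℕ) : ℂ) ≠ 0 := by exact_mod_cast i.factorial_ne_zero
  have h3 : ((j ! : ℕ) : ℂ) ≠ 0 := by exact_mod_cast j.factorial_ne_zero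
  have h4 : (((i + j).choose i : ℕ) : ℂ) ≠ 0 := by
    exact_mod_cast (Nat.choose_pos (Nat.le_add_right i j)).ne'
  push_cast at h1 ⊢
  rw [← h1]
  field_simp
  ring

omit h ht in
lemma flow_of_zero {f : AG G} (hf : D f = 0) : flow D t f = Lam f := by
  rw [flow, tsum_eq_single 0]
  · simp [term]
  · intro k hk
    obtain ⟨k, rfl⟩ := Nat.exists_eq_succ_of_ne_zero hk
    rw [term, Function.iterate_succ_apply, hf, Function.iterate_fixed (map_zero D), map_zero,
      smul_zero]

omit ht in
lemma D_one : D 1 = 0 := by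
  have := h.leib 1 1
  simpa using this

omit ht in
lemma flow_star (f : AG G) : Star.star (flow D t f) = flow D t (JA f) := by
  rw [flow, flow, tsum_star]
  refine tsum_congr fun k => ?_
  rw [term, term, star_smul, Complex.star_def, Complex.conj_ofReal, h.iter_star, Lam_JA]

lemma flow_mem (f : AG G) : InM (flow D t f) := by
  refine InM.of_tendsto (l := atTop) (T := fun n => ∑ k ∈ range n, term D t f k)
    (fun n => InM.sum _ fun k _ => (Lam_mem _).smul _) fun ξ => ?_
  exact ((ContinuousLinearMap.apply ℂ (L2 G) ξ).continuous.tendsto _).comp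
    (h.hasSum_term ht f).tendsto_sum_nat

lemma hasSum_coeff (f : AG G) (g : G) :
    HasSum (fun k => ((t ^ k / k ! * (D^[k] f).coeff g : ℝ) : ℂ)) (flow D t f (dl 1) g) := by
  have := (h.hasSum_term ht f).mapL
    ((innerSL ℂ (dl g)).comp (ContinuousLinearMap.apply ℂ (L2 G) (dl 1)))
  simpa [inner_dl, term, Lam_dl] using this

omit ht in
lemma skew (k : ℕ) (f f' : AG G) :
    (D^[k] f * f').coeff 1 = (-1) ^ k * (f * D^[k] f').coeff 1 := by
  induction k generalizing f' with
  | zero => simp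
  | succ k ih =>
    have := h.trace (D^[k] f * f')
    rw [h.leib, MonoidAlgebra.coeff_add, Finsupp.add_apply, ih] at this
    rw [Function.iterate_succ_apply', Function.iterate_succ_apply, pow_succ]
    linarith

omit ht in
lemma skew_coeff (k : ℕ) (g g' : G) :
    (D^[k] (og g)).coeff g' = (-1) ^ k * (D^[k] (og g')).coeff g := by
  have := h.skew k (og g) (JA (og g'))
  rw [h.iter_star, JA_og, og_coeff_mul_right, og_coeff_mul_left, JA_coeff] at this
  simpa using this

/-- The representation defined by the flow. -/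
noncomputable def rep : G →* BG G where
  toFun g := flow D t (og g)
  map_one' := by rw [map_one, flow_of_zero h.D_one, map_one]
  map_mul' g g' := by rw [map_mul, h.flow_mul ht]

lemma isRep : IsRep (h.rep ht) :=
  ⟨fun g => h.flow_mem ht _, fun g => by
    change Star.star (flow D t (og g)) = flow D t (og g⁻¹)
    rw [h.flow_star, JA_og]⟩

lemma rep_free (g : G) (hg : g ≠ 1) : h.rep ht g (dl 1) 1 = 0 := by
  have := h.hasSum_coeff ht (og g) 1
  have e : (fun k => ((t ^ k / k ! * (D^[k] (og g)).coeff 1 : ℝ) : ℂ)) = fun _ => 0 := by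
    funext k
    cases k with
    | zero => simp [hg]
    | succ k => rw [Function.iterate_succ_apply', h.trace]; simp
  rw [e] at this
  exact this.unique hasSum_zero

lemma entry_symm (g g' : G) :
    Star.star (flow D (-t) (og g') (dl 1) g) = flow D t (og g) (dl 1) g' := by
  have h1 := (h.hasSum_coeff (t := -t) (by rwa [abs_neg]) (og g') g).star
  refine h1.unique ?_
  have h2 := h.hasSum_coeff ht (og g) g'
  convert h2 using 2 with k
  rw [Complex.star_def, Complex.conj_ofReal, h.skew_coeff k g g', neg_pow]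
  congr 1
  ring

lemma rep_dense :
    ⊤ ≤ (Submodule.span ℂ (Set.range fun g => h.rep ht g (dl 1))).topologicalClosure := by
  have ht' : 2 * C * L * |(-t)| ≤ 1 / 2 := by rwa [abs_neg]
  obtain ⟨T, -, hT⟩ := exists_isom ((h.isRep ht).orthonormal (h.rep_free ht))
  obtain ⟨T', hT1', hT'⟩ := exists_isom ((h.isRep ht').orthonormal (h.rep_free ht'))
  have e : Star.star T = T' := clm_ext_inner fun g g' => by
    rw [inner_star_right, hT, hT', inner_dl, ← inner_conj_symm, inner_dl]
    have := h.entry_symm (t := -t) ht' g g'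
    rw [neg_neg] at this
    exact this
  rw [top_le_iff, Submodule.topologicalClosure_eq_top_iff, Submodule.eq_bot_iff]
  intro ξ hξ
  rw [← norm_eq_zero, ← hT1', ← e, norm_eq_zero]
  refine lp.ext (funext fun g => ?_)
  rw [← inner_dl, inner_star_right, hT]
  exact Submodule.inner_right_of_mem_orthogonal
    (Submodule.subset_span (Set.mem_range_self (f := fun g => h.rep ht g (dl 1)) g)) hξ

end IsFlow

lemma IsFlow.second_order {D : AG G →ₗ[ℝ] AG G} {len : G → ℕ} {C : ℝ} {L : ℕ}
    (h : IsFlow D len C L) (f : AG G) : ∃ K : ℝ, ∀ t : ℝ, 2 * C * L * |t| ≤ 1 / 2 →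
      ‖flow D t f - Lam f - (t : ℂ) • Lam (D f)‖ ≤ K * t ^ 2 := by
  obtain ⟨r, c, hf⟩ := Bd.exists_bd len f
  have hC := h.hC
  have hc := hf.nonneg
  refine ⟨c * 2 ^ r * (2 * C * L) ^ 2 * 2, fun t ht => ?_⟩
  have h1 := (h.summable_norm_term ht f).of_norm.sum_add_tsum_nat_add 2
  have h2 : flow D t f - Lam f - (t : ℂ) • Lam (D f) = ∑' k, term D t f (k + 2) := by
    rw [flow, ← h1]
    simp [Finset.sum_range_succ, term]
    abel
  rw [h2]
  have h3 := (hasSum_geometric_two).mul_left (c * 2 ^ r * (2 * C * L) ^ 2 * t ^ 2)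
  refine (tsum_of_norm_bounded h3 fun k => (h.norm_term_le hf t _).trans ?_).trans
    (le_of_eq (by ring))
  calc c * 2 ^ r * (2 * C * L * |t|) ^ (k + 2)
      = c * 2 ^ r * (2 * C * L) ^ 2 * |t| ^ 2 * (2 * C * L * |t|) ^ k := by ring
    _ ≤ c * 2 ^ r * (2 * C * L) ^ 2 * |t| ^ 2 * (1 / 2) ^ k := by gcongr
    _ = _ := by rw [sq_abs]

theorem IsFlow.exists_good {D : AG G →ₗ[ℝ] AG G} {len : G → ℕ} {C : ℝ} {L : ℕ}
    (h : IsFlow D len C L) : ∃ t₀ : ℝ, 0 < t₀ ∧ ∃ K : G → ℝ, ∀ t : ℝ, |t| ≤ t₀ →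
      ∃ U : L2 G ≃ₗᵢ[ℂ] L2 G, Good U ∧
        (∀ g, D (og g) = 0 → ∀ ξ, U (lam g ξ) = lam g (U ξ)) ∧
        ∀ g, ‖U (dl g) - dl g - (t : ℂ) • Lam (D (og g)) (dl 1)‖ ≤ K g * t ^ 2 := by
  have hC := h.hC
  choose K hK using h.second_order
  refine ⟨1 / (4 * C * L + 1), by positivity, fun g => K (og g), fun t ht => ?_⟩
  have ht' : 2 * C * L * |t| ≤ 1 / 2 := by
    rw [le_div_iff₀ (by positivity)] at ht
    nlinarith [abs_nonneg t]
  obtain ⟨U, hU, hr⟩ := (h.isRep ht').exists_good (h.rep_free ht') (h.rep_dense ht')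
  refine ⟨U, hU, fun g hg ξ => ?_, fun g => ?_⟩
  · have e : repOf U g = lam g := by
      rw [hr]
      exact (IsFlow.flow_of_zero hg).trans (Lam_og g)
    rw [← congrArg (fun X : BG G => X (U ξ)) e]
    change U (lam g ξ) = U (lam g (U.symm (U ξ)))
    rw [U.symm_apply_apply]
  · have e : U (dl g) - dl g - (t : ℂ) • Lam (D (og g)) (dl 1)
        = (flow D t (og g) - Lam (og g) - (t : ℂ) • Lam (D (og g))) (dl 1) := by
      rw [← hU.repOf_dl, hr, Lam_og]
      simp [lam_dl]
      rfl
    rw [e]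
    refine (ContinuousLinearMap.le_opNorm _ _).trans ?_
    rw [norm_dl, mul_one]
    exact hK _ t ht'

end Vale.Agent.P086
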