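import Vale.Agent.P086.Comb
import Vale.Agent.P086.Flow

/-! Cocycles on free groups and the derivations they define. -/

namespace Vale.Agent.P086

open Finset

lemma exists_cocycle {ι V : Type} [AddCommGroup V] (ρ : FreeGroup ι → V → V)
    (h1 : ∀ x, ρ 1 x = x) (hm : ∀ g h x, ρ (g * h) x = ρ g (ρ h x))
    (ha : ∀ g x y, ρ g (x + y) = ρ g x + ρ g y) (v : ι → V) :
    ∃ κ : FreeGroup ι → V, (∀ g h, κ (g * h) = κ g + ρ g (κ h)) ∧
      ∀ i, κ (FreeGroup.of i) = v i := by
  have h0 : ∀ g, ρ g 0 = 0 := fun g => by simpa using ha g 0 0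
  let φ : ι → Equiv.Perm V := fun i =>
    { toFun := fun x => v i + ρ (FreeGroup.of i) x
      invFun := fun x => ρ (FreeGroup.of i)⁻¹ (x - v i)
      left_inv := fun x => by simp [← hm, h1]
      right_inv := fun x => by simp [← hm, h1] }
  let Φ : FreeGroup ι →* Equiv.Perm V := FreeGroup.lift φ
  have key : ∀ g x, Φ g x = Φ g 0 + ρ g x := by
    intro g
    induction g using FreeGroup.induction_on with
    | C1 => intro x; simp [h1]
    | of i => intro x; simp [Φ, φ, h0]
    | inv_of i _ =>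
      intro x
      have e : ∀ y, Φ (FreeGroup.of i)⁻¹ y = ρ (FreeGroup.of i)⁻¹ (y - v i) := fun y => by
        rw [map_inv, FreeGroup.lift_apply_of]; rfl
      rw [e, e, ← ha]
      congr 1
      abel
    | mul g h hg hh =>
      intro x
      rw [map_mul, Equiv.Perm.mul_apply, Equiv.Perm.mul_apply, hg (Φ h x), hg (Φ h 0), hh x, ha, hm,
        add_assoc]
  refine ⟨fun g => Φ g 0, fun g h => ?_, fun i => by simp [Φ, φ, h0]⟩
  dsimp only
  rw [map_mul, Equiv.Perm.mul_apply, key]

section Word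

/-- Conjugates of the third generator by powers of the second. -/
def cc : ℕ → FreeGroup (Fin 3)
  | 0 => FreeGroup.of 2
  | i + 1 => FreeGroup.of 1 * cc i * (FreeGroup.of 1)⁻¹

/-- The long word. -/
def PP : ℕ → FreeGroup (Fin 3)
  | 0 => 1
  | n + 1 => PP n * (cc n * FreeGroup.of 0 * (cc n)⁻¹)

lemma exists_gamma : ∃ γ : FreeGroup (Fin 3) → FreeGroup ℤ, γ 1 = 1 ∧
    ∀ (i : ℕ) g, γ (PP i * cc i * g) = FreeGroup.of (i : ℤ) * γ g := by
  let σ : FreeGroup ℤ ≃* FreeGroup ℤ := FreeGroup.freeGroupCongr (Equiv.addRight 1)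
  let ψ : FreeGroup (Fin 3) →* Equiv.Perm (FreeGroup ℤ) :=
    FreeGroup.lift ![1, σ.toEquiv, Equiv.mulLeft (FreeGroup.of 0)]
  have hc : ∀ (i : ℕ) x, ψ (cc i) x = FreeGroup.of (i : ℤ) * x := by
    intro i
    induction i with
    | zero => intro x; simp [ψ, cc]
    | succ i ih =>
      intro x
      have e : ψ (FreeGroup.of 1) = σ.toEquiv := by simp [ψ]
      rw [cc, map_mul, map_mul, map_inv, e, Equiv.Perm.mul_apply, Equiv.Perm.mul_apply, ih]
      change σ (FreeGroup.of (i : ℤ) * σ.symm x) = _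
      rw [map_mul, σ.apply_symm_apply]
      simp [σ]
  have hP : ∀ n, ψ (PP n) = 1 := by
    intro n
    induction n with
    | zero => exact map_one ψ
    | succ n ih =>
      have e : ψ (FreeGroup.of 0) = 1 := by simp [ψ]
      rw [PP, map_mul, map_mul, map_mul, ih, e, map_inv]
      simp
  refine ⟨fun g => ψ g 1, by simp, fun i g => ?_⟩
  dsimp only
  rw [map_mul, map_mul, hP, one_mul, Equiv.Perm.mul_apply, hc]

/-- A cocycle for left translation that is small on the generators and comes close to `δ₁`. -/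
lemma exists_beta {ε : ℝ} (hε : 0 < ε) :
    ∃ (β : FreeGroup (Fin 3) → AG (FreeGroup (Fin 3))) (w : FreeGroup (Fin 3)),
      (∀ g h, β (g * h) = β g + og g * β h) ∧ β (FreeGroup.of 1) = 0 ∧ β (FreeGroup.of 2) = 0 ∧
      ‖vec (β (FreeGroup.of 0))‖ ≤ ε ∧ ‖vec (β w - 1)‖ ≤ ε := by
  obtain ⟨γ, h1, hγ⟩ := exists_gamma
  obtain ⟨K, hK⟩ := exists_nat_gt (1 / ε ^ 2)
  obtain ⟨M, hM⟩ := exists_nat_gt ((K + 1) / ε ^ 2)
  have hK0 : (0 : ℝ) < K := lt_trans (by positivity) hK
  have hM0 : (0 : ℝ) < M := lt_trans (by positivity) hM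
  obtain ⟨d, hd1, hd2⟩ := exists_small_inverse (M := M) (fun i => PP i * cc i)
    (q := fun i => ((i : ℕ) : ℤ)) (γ := γ) (fun _ _ h => Fin.ext (by simpa using h)) h1
    (fun i g => hγ i g) (by exact_mod_cast hM0) K (by exact_mod_cast hK0)
  obtain ⟨β, hβ, hv⟩ := exists_cocycle (V := AG (FreeGroup (Fin 3))) (fun g f => og g * f)
    (fun x => by rw [map_one, one_mul]) (fun g h x => by rw [map_mul, mul_assoc])
    (fun g x y => mul_add _ _ _) ![d, 0, 0]
  have b1 : β 1 = 0 := by simpa [-MonoidAlgebra.of_apply] using hβ 1 1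
  have binv : ∀ g, β g = 0 → β g⁻¹ = 0 := fun g hg => by
    have := hβ g⁻¹ g
    rwa [inv_mul_cancel, b1, hg, mul_zero, add_zero, eq_comm] at this
  have hb : β (FreeGroup.of 1) = 0 := hv 1
  have hc : ∀ i, β (cc i) = 0 := by
    intro i
    induction i with
    | zero => exact hv 2
    | succ i ih => rw [cc, hβ, hβ, hb, ih, binv _ hb]; simp
  have hP : ∀ n, β (PP n) = (∑ i ∈ range n, og (PP i * cc i)) * d := by
    intro n
    induction n with
    | zero => simpa [PP] using b1
    | succ n ih =>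
      have e : β (FreeGroup.of 0) = d := hv 0
      rw [PP, hβ, hβ, hβ, ih, hc, binv _ (hc n), e, Finset.sum_range_succ, add_mul, map_mul]
      simp [mul_assoc, -MonoidAlgebra.of_apply]
  refine ⟨β, PP (M + 1), hβ, hb, hv 2, ?_, ?_⟩
  · rw [hv]
    refine (pow_le_pow_iff_left₀ (norm_nonneg _) hε.le two_ne_zero).1 (hd1.trans ?_)
    rw [div_lt_iff₀ (by positivity)] at hM
    rw [div_le_iff₀ (by positivity)]
    nlinarith [sq_nonneg ε]
  · rw [hP, Finset.sum_range]
    refine (pow_le_pow_iff_left₀ (norm_nonneg _) hε.le two_ne_zero).1 (hd2.trans ?_)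
    rw [div_lt_iff₀ (by positivity)] at hK
    rw [div_le_iff₀ hK0]
    linarith

end Word

section Conj

variable {ι : Type} {κ : FreeGroup ι → AG (FreeGroup ι)}
  (hκ : ∀ g h, κ (g * h) = κ g + og g * κ h * og g⁻¹)

include hκ

lemma kappa_one : κ 1 = 0 := by simpa [-MonoidAlgebra.of_apply] using hκ 1 1

lemma kappa_inv (g : FreeGroup ι) : κ g⁻¹ = -(og g⁻¹ * κ g * og g⁻¹⁻¹) := by
  have := hκ g⁻¹ g
  rw [inv_mul_cancel, kappa_one hκ] at this
  exact eq_neg_of_add_eq_zero_left this.symm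

lemma kappa_induction (R : AG (FreeGroup ι) → Prop) (h0 : R 0)
    (hadd : ∀ f f', R f → R f' → R (f + f')) (hneg : ∀ f, R f → R (-f))
    (hconj : ∀ g f, R f → R (og g * f * og g⁻¹)) (hof : ∀ i, R (κ (FreeGroup.of i)))
    (g : FreeGroup ι) : R (κ g) := by
  induction g using FreeGroup.induction_on with
  | C1 => rw [kappa_one hκ]; exact h0
  | of i => exact hof i
  | inv_of i ih => rw [kappa_inv hκ]; exact hneg _ (hconj _ _ ih)
  | mul g h hg hh => rw [hκ]; exact hadd _ _ hg (hconj _ _ hh)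

lemma kappa_trace (g : FreeGroup ι) (hs : Supp (fun x => ∃ y v, κ v = 0 ∧ x = y * v * y⁻¹) (κ g)) :
    (κ g).coeff g⁻¹ = 0 := by
  by_contra hne
  obtain ⟨y, v, hv, hx⟩ := hs _ hne
  have hg : g = y * v⁻¹ * y⁻¹ := by
    rw [← inv_inv g, hx]; group
  have hv' : κ v⁻¹ = 0 := by rw [kappa_inv hκ, hv]; simp
  have e : κ g = κ y - og g * κ y * og g⁻¹ := by
    conv_lhs => rw [hg, hκ, hκ, hv', kappa_inv hκ]
    have e1 : og g = og (y * v⁻¹) * og y⁻¹ := by rw [← map_mul, ← hg]
    have e2 : og g⁻¹ = og y⁻¹⁻¹ * og (y * v⁻¹)⁻¹ := by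
      rw [← map_mul, hg]; congr 1; group
    rw [e1, e2]
    noncomm_ring
  apply hne
  rw [e, MonoidAlgebra.coeff_sub, Finsupp.sub_apply]
  have := coeff_conj (κ y) g g⁻¹
  rw [mul_inv_cancel, one_mul] at this
  rw [this, sub_self]

lemma isFlow_of_cocycle [DecidableEq ι] (hskew : ∀ i, JA (κ (FreeGroup.of i)) = -κ (FreeGroup.of i))
    (hsupp : ∀ i, Supp (fun x => ∃ y v, κ v = 0 ∧ x = y * v * y⁻¹) (κ (FreeGroup.of i)))
    {r₀ : ℕ} {c₀ : ℝ} (hc₀ : 0 ≤ c₀) (hbd : ∀ i, Bd FreeGroup.norm r₀ c₀ (κ (FreeGroup.of i))) :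
    IsFlow (linExt fun g => κ g * og g) FreeGroup.norm c₀ (r₀ + 1) := by
  set D : AG (FreeGroup ι) →ₗ[ℝ] AG (FreeGroup ι) := linExt fun g => κ g * og g with hD
  have hDg : ∀ g, D (og g) = κ g * og g := fun g => linExt_og _ _
  have hmul : ∀ g h, D (og (g * h)) = D (og g) * og h + og g * D (og h) := fun g h => by
    rw [hDg, hDg, hDg, hκ, map_mul, add_mul]
    have : og g⁻¹ * og g = 1 := by rw [← map_mul, inv_mul_cancel, map_one]
    congr 1
    · rw [mul_assoc]
    · rw [mul_assoc, ← mul_assoc (og g⁻¹), this, one_mul, mul_assoc]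
  have hsk : ∀ g, JA (κ g) = -κ g := kappa_induction hκ (fun f => JA f = -f) (by simp)
    (fun f f' h h' => by rw [map_add, h, h', neg_add])
    (fun f h => by rw [map_neg, h])
    (fun g f h => by rw [JA_mul, JA_mul, JA_og, JA_og, h, inv_inv]; noncomm_ring) hskew
  have hsp : ∀ g, Supp (fun x => ∃ y v, κ v = 0 ∧ x = y * v * y⁻¹) (κ g) :=
    kappa_induction hκ _ (fun g hg => absurd rfl hg)
      (fun f f' h h' g hg => by
        by_cases h1 : f.coeff g = 0
        · exact h' g (by simpa [h1] using hg)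
        · exact h g h1)
      (fun f h g hg => h g (by simpa using hg))
      (fun g f h x hx => by
        have e : x = g * (g⁻¹ * x * g) * g⁻¹ := by group
        rw [e, coeff_conj] at hx
        obtain ⟨y, v, hv, hy⟩ := h _ hx
        exact ⟨g * y, v, hv, by rw [e, hy]; group⟩) hsupp
  have hinv : ∀ g, D (og g⁻¹) = -(og g⁻¹ * κ g) := fun g => by
    rw [hDg, kappa_inv hκ, neg_mul, mul_assoc, ← map_mul, inv_mul_cancel, map_one, mul_one]
  refine ⟨fun f f' => ?_, fun f => ?_, fun f => ?_, hc₀, Nat.le_add_left _ _, fun r g hg => ?_⟩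
  · induction f using MonoidAlgebra.induction_on with
    | of g =>
      induction f' using MonoidAlgebra.induction_on with
      | of h => rw [← map_mul]; exact hmul g h
      | add x y hx hy => simp only [mul_add, map_add, hx, hy]; abel
      | smul a x hx => simp only [mul_smul_comm, map_smul, hx, smul_add]
    | add x y hx hy => simp only [add_mul, map_add, hx, hy]; abel
    | smul a x hx => simp only [smul_mul_assoc, map_smul, hx, smul_add]
  · refine lin_ext (S := D.comp JA) (T := JA.comp D) (fun g => ?_) f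
    rw [LinearMap.comp_apply, LinearMap.comp_apply, JA_og, hinv, hDg, JA_mul, JA_og, hsk, mul_neg]
  · induction f using MonoidAlgebra.induction_on with
    | of g =>
      rw [hDg, og_coeff_mul_right, one_mul]
      exact kappa_trace hκ g (hsp g)
    | add x y hx hy => simp [hx, hy]
    | smul a x hx => simp [hx]
  · have hn := FreeGroup.norm_mul_le (α := ι)
    have hlet : ∀ x : ι × Bool, Bd FreeGroup.norm (r₀ + 1) c₀ (D (og (FreeGroup.mk [x]))) := by
      rintro ⟨i, _ | _⟩
      · have e : FreeGroup.mk [(i, false)] = (FreeGroup.of i)⁻¹ := rfl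
        rw [e, hinv]
        have := ((hbd i).mul_mul hn (FreeGroup.of i)⁻¹ 1).smul (-1)
        simpa [add_comm, -MonoidAlgebra.of_apply] using this
      · have e : FreeGroup.mk [(i, true)] = FreeGroup.of i := rfl
        rw [e, hDg]
        have := (hbd i).mul_mul hn 1 (FreeGroup.of i)
        simpa [-MonoidAlgebra.of_apply] using this
    have key : ∀ L : List (ι × Bool),
        Bd FreeGroup.norm (L.length + (r₀ + 1)) (c₀ * L.length) (D (og (FreeGroup.mk L))) := by
      intro L
      induction L with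
      | nil =>
        rw [← FreeGroup.one_eq_mk, hDg, kappa_one hκ, zero_mul]
        exact Bd.zero _ (by simp)
      | cons x L ih =>
        have e : FreeGroup.mk (x :: L) = FreeGroup.mk [x] * FreeGroup.mk L := by
          rw [FreeGroup.mul_mk]; rfl
        have n1 : (FreeGroup.mk L).norm ≤ L.length := FreeGroup.norm_mk_le
        have n2 : (FreeGroup.mk [x]).norm ≤ 1 := FreeGroup.norm_mk_le
        have a1 := ((hlet x).mul_mul hn 1 (FreeGroup.mk L)).mono
          (r' := (x :: L).length + (r₀ + 1)) (by simp; omega) le_rfl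
        have a2 := (ih.mul_mul hn (FreeGroup.mk [x]) 1).mono
          (r' := (x :: L).length + (r₀ + 1)) (by simp; omega) le_rfl
        rw [map_one, one_mul] at a1
        rw [map_one, mul_one] at a2
        rw [e, hmul]
        refine (a1.add a2).mono le_rfl (le_of_eq ?_)
        simp
        ring
    have := key g.toWord
    rw [FreeGroup.mk_toWord] at this
    refine this.mono (Nat.add_le_add_right hg _) ?_
    exact mul_le_mul_of_nonneg_left (by exact_mod_cast hg) hc₀

end Conj

end Vale.Agent.P086
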