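import Vale.Agent.P086.Alg

/-! A small approximate right inverse, in `ℓ²`, for a sum of many free group elements. -/

namespace Vale.Agent.P086

open Finset
open scoped InnerProductSpace

variable {G : Type} [Group G]

/-- The vector in `ℓ²(G)` of an element of the group algebra. -/
noncomputable def vec (f : AG G) : L2 G := Lam f (dl 1)

lemma vec_og (g : G) : vec (og g) = dl g := by rw [vec, Lam_og, lam_dl, mul_one]

lemma vec_add (f f' : AG G) : vec (f + f') = vec f + vec f' := by simp [vec]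

lemma vec_sub (f f' : AG G) : vec (f - f') = vec f - vec f' := by simp [vec]

lemma vec_smul (a : ℝ) (f : AG G) : vec (a • f) = (a : ℂ) • vec f := by
  rw [vec, map_smul, real_smul_eq]; rfl

lemma vec_sum {I : Type} (s : Finset I) (f : I → AG G) :
    vec (∑ i ∈ s, f i) = ∑ i ∈ s, vec (f i) := by
  simp [vec]

lemma norm_vec_smul (a : ℝ) (f : AG G) : ‖vec (a • f)‖ = |a| * ‖vec f‖ := by
  rw [vec_smul, norm_smul, Complex.norm_real, Real.norm_eq_abs]

lemma norm_vec_og_mul (g : G) (f : AG G) : ‖vec (og g * f)‖ = ‖vec f‖ := by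
  rw [vec, map_mul, Lam_og]
  exact norm_lam g _

lemma norm_vec_mul_og (g : G) (f : AG G) : ‖vec (f * og g)‖ = ‖vec f‖ := by
  rw [vec, map_mul, Lam_og]
  exact (isRep_lam.um g).norm_mul_dl (Lam_mem f)

/-- The support of `f` satisfies `P`. -/
def Supp (P : G → Prop) (f : AG G) : Prop := ∀ g, f.coeff g ≠ 0 → P g

omit [Group G] in
lemma Supp.sum {P : G → Prop} {I : Type} {s : Finset I} {f : I → AG G}
    (h : ∀ i ∈ s, Supp P (f i)) : Supp P (∑ i ∈ s, f i) := by
  intro g hg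
  rw [MonoidAlgebra.coeff_sum, Finsupp.finsetSum_apply] at hg
  obtain ⟨i, hi, h0⟩ := Finset.exists_ne_zero_of_sum_ne_zero hg
  exact h i hi g h0

omit [Group G] in
lemma Supp.mono {P Q : G → Prop} {f : AG G} (h : Supp P f) (hPQ : ∀ g, P g → Q g) : Supp Q f :=
  fun g hg => hPQ g (h g hg)

lemma Supp.smul {P : G → Prop} {f : AG G} (h : Supp P f) (a : ℝ) : Supp P (a • f) :=
  fun g hg => h g fun h0 => hg (by simp [h0])

lemma Supp.og_mul {P Q : G → Prop} {f : AG G} (h : Supp P f) (g : G)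
    (hPQ : ∀ x, P x → Q (g * x)) : Supp Q (og g * f) := fun x hx => by
  rw [og_coeff_mul_left] at hx
  simpa using hPQ _ (h _ hx)

lemma supp_og {P : G → Prop} {g : G} (h : P g) : Supp P (og g) := fun x hx => by
  classical
  rw [og_coeff] at hx
  split_ifs at hx with h1
  · exact h1 ▸ h
  · exact absurd rfl hx

lemma normsq_sum {I β : Type} (lab : G → β) (s : Finset I) (f : I → AG G) (b : I → β)
    (hb : Function.Injective b) (h : ∀ i ∈ s, Supp (fun g => lab g = b i) (f i)) :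
    ‖vec (∑ i ∈ s, f i)‖ ^ 2 = ∑ i ∈ s, ‖vec (f i)‖ ^ 2 := by
  have ho : ∀ i ∈ s, ∀ j ∈ s, j ≠ i → ⟪vec (f i), vec (f j)⟫_ℂ = 0 := by
    intro i hi j hj hij
    rw [lp.inner_eq_tsum]
    convert tsum_zero with g
    rw [vec, vec, Lam_dl, Lam_dl]
    by_cases h1 : (f i).coeff g = 0
    · simp [h1]
    by_cases h2 : (f j).coeff g = 0
    · simp [h2]
    exact absurd (hb ((h j hj g h2).symm.trans (h i hi g h1))) hij
  rw [vec_sum, ← inner_self_eq_norm_sq (𝕜 := ℂ), sum_inner, map_sum]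
  refine Finset.sum_congr rfl fun i hi => ?_
  rw [inner_sum, Finset.sum_eq_single_of_mem i hi fun j hj hij => ho i hi j hj hij,
    inner_self_eq_norm_sq]

lemma toWord_cons {J : Type} [DecidableEq J] (a : J) (b : Bool) (x : FreeGroup J)
    (h : x.toWord.head? ≠ some (a, !b)) :
    (FreeGroup.mk [(a, b)] * x).toWord = (a, b) :: x.toWord := by
  rw [FreeGroup.toWord_mul, FreeGroup.toWord_mk, FreeGroup.reduce_singleton, List.singleton_append,
    FreeGroup.reduce.cons, FreeGroup.reduce_toWord]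
  rcases hx : x.toWord with _ | ⟨⟨c, d⟩, L⟩
  · rfl
  · rw [hx] at h
    have : ¬ (a = c ∧ b = !d) := by
      rintro ⟨rfl, rfl⟩
      simp at h
    simp [this]

section Tree

variable {M : ℕ} (p : Fin (M + 1) → G)

/-- Sums of alternating words of odd length with prescribed first letter. -/
noncomputable def EE : ℕ → Fin (M + 1) → AG G
  | 0, i => og (p i)⁻¹
  | k + 1, i => og (p i)⁻¹ * ∑ j ∈ univ.erase i, og (p j) * ∑ l ∈ univ.erase j, EE k l

/-- Sums of alternating words of even length with prescribed first letter. -/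
noncomputable def FF (k : ℕ) (j : Fin (M + 1)) : AG G := og (p j) * ∑ l ∈ univ.erase j, EE p k l

lemma EE_succ (k : ℕ) (i : Fin (M + 1)) :
    EE p (k + 1) i = og (p i)⁻¹ * ∑ j ∈ univ.erase i, FF p k j := rfl

lemma x_mul_e (k : ℕ) : (∑ j, og (p j)) * ∑ l, EE p k l
    = ∑ j, og (p j) * EE p k j + ∑ j, FF p k j := by
  rw [Finset.sum_mul, ← Finset.sum_add_distrib]
  refine Finset.sum_congr rfl fun j _ => ?_
  rw [FF, ← mul_add, Finset.add_sum_erase _ _ (Finset.mem_univ j)]

lemma x_mul_e_zero : (∑ j, og (p j)) * ∑ l, EE p 0 l = ((M : ℝ) + 1) • 1 + ∑ j, FF p 0 j := by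
  rw [x_mul_e]
  congr 1
  have : ∀ j, og (p j) * EE p 0 j = 1 := fun j => by
    rw [EE, ← map_mul, mul_inv_cancel, map_one]
  simp only [this, Finset.sum_const, Finset.card_univ, Fintype.card_fin]
  rw [← Nat.cast_smul_eq_nsmul ℝ]
  push_cast
  rfl

lemma x_mul_e_succ (k : ℕ) : (∑ j, og (p j)) * ∑ l, EE p (k + 1) l
    = (M : ℝ) • ∑ j, FF p k j + ∑ j, FF p (k + 1) j := by
  rw [x_mul_e]
  congr 1
  have : ∀ j, og (p j) * EE p (k + 1) j = ∑ l, FF p k l - FF p k j := fun j => by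
    rw [EE_succ, ← mul_assoc, ← map_mul, mul_inv_cancel, map_one, one_mul,
      ← Finset.add_sum_erase _ _ (Finset.mem_univ j), add_sub_cancel_left]
  simp only [this, Finset.sum_sub_distrib, Finset.sum_const, Finset.card_univ, Fintype.card_fin]
  rw [succ_nsmul, add_sub_cancel_right, Nat.cast_smul_eq_nsmul]

lemma x_mul_d (hM : 0 < M) (K : ℝ) (n : ℕ) :
    (∑ j, og (p j)) * ∑ k ∈ range (n + 1),
        ((-1) ^ k * (1 - k / K) / ((M + 1) * M ^ k) : ℝ) • ∑ l, EE p k l
      = 1 + ∑ k ∈ range n, ((-1) ^ k * (1 / K) / ((M + 1) * M ^ k) : ℝ) • ∑ j, FF p k j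
        + ((-1) ^ n * (1 - n / K) / ((M + 1) * M ^ n) : ℝ) • ∑ j, FF p n j := by
  have hM' : (M : ℝ) ≠ 0 := by exact_mod_cast hM.ne'
  have hM1 : (M : ℝ) + 1 ≠ 0 := by positivity
  induction n with
  | zero =>
    rw [Finset.sum_range_one, mul_smul_comm, x_mul_e_zero, smul_add, smul_smul]
    simp [hM1]
  | succ n ih =>
    rw [Finset.sum_range_succ, mul_add, ih, mul_smul_comm, x_mul_e_succ, Finset.sum_range_succ,
      smul_add, smul_smul]
    have : ((-1) ^ n * (1 / K) / ((M + 1) * M ^ n) : ℝ)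
        = (-1) ^ n * (1 - n / K) / ((M + 1) * M ^ n)
          + (-1) ^ (n + 1) * (1 - (n + 1 : ℕ) / K) / ((M + 1) * M ^ (n + 1)) * M := by
      push_cast
      field_simp
      ring
    rw [this, add_smul]
    abel

variable {J : Type} [DecidableEq J] {q : Fin (M + 1) → J} {γ : G → FreeGroup J}
  (hq : Function.Injective q) (h1 : γ 1 = 1)
  (hγ : ∀ i g, γ (p i * g) = FreeGroup.of (q i) * γ g)

include hq h1 hγ

lemma supp_EF (k : ℕ) :
    (∀ i, Supp (fun g => (γ g).toWord.length = 2 * k + 1 ∧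
      (γ g).toWord.head? = some (q i, false)) (EE p k i)) ∧
    (∀ j, Supp (fun g => (γ g).toWord.length = 2 * k + 2 ∧
      (γ g).toWord.head? = some (q j, true)) (FF p k j)) := by
  have hγ' : ∀ i g, γ ((p i)⁻¹ * g) = FreeGroup.mk [(q i, false)] * γ g := fun i g => by
    have := hγ i ((p i)⁻¹ * g)
    rw [mul_inv_cancel_left] at this
    rw [this]
    exact (inv_mul_cancel_left (FreeGroup.of (q i)) _).symm
  have step : ∀ k, (∀ i, Supp (fun g => (γ g).toWord.length = 2 * k + 1 ∧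
      (γ g).toWord.head? = some (q i, false)) (EE p k i)) →
      ∀ j, Supp (fun g => (γ g).toWord.length = 2 * k + 2 ∧
        (γ g).toWord.head? = some (q j, true)) (FF p k j) := by
    intro k hE j
    refine Supp.og_mul (P := fun g => (γ g).toWord.length = 2 * k + 1 ∧
      (γ g).toWord.head? ≠ some (q j, !true))
      (Supp.sum fun l hl => (hE l).mono fun g hg => ⟨hg.1, ?_⟩) _ fun x hx => ?_
    · rw [hg.2]
      intro h
      exact (Finset.mem_erase.1 hl).1 (hq (by simpa using h))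
    · rw [hγ, FreeGroup.of, toWord_cons _ _ _ hx.2]
      simp [hx.1]
  induction k with
  | zero =>
    have hE : ∀ i, Supp (fun g => (γ g).toWord.length = 2 * 0 + 1 ∧
        (γ g).toWord.head? = some (q i, false)) (EE p 0 i) := fun i => supp_og (by
      have := hγ' i 1
      rw [mul_one, h1] at this
      rw [this, toWord_cons _ _ _ (by simp)]
      simp)
    exact ⟨hE, step 0 hE⟩
  | succ k ih =>
    have hE : ∀ i, Supp (fun g => (γ g).toWord.length = 2 * (k + 1) + 1 ∧
        (γ g).toWord.head? = some (q i, false)) (EE p (k + 1) i) := fun i => by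
      refine Supp.og_mul (P := fun g => (γ g).toWord.length = 2 * k + 2 ∧
        (γ g).toWord.head? ≠ some (q i, !false))
        (Supp.sum fun l hl => (ih.2 l).mono fun g hg => ⟨hg.1, ?_⟩) _ fun x hx => ?_
      · rw [hg.2]
        intro h
        exact (Finset.mem_erase.1 hl).1 (hq (by simpa using h))
      · rw [hγ', toWord_cons _ _ _ hx.2]
        simp [hx.1]
        ring
    exact ⟨hE, step _ hE⟩

lemma normsq_sum_E (k : ℕ) (s : Finset (Fin (M + 1))) :
    ‖vec (∑ i ∈ s, EE p k i)‖ ^ 2 = ∑ i ∈ s, ‖vec (EE p k i)‖ ^ 2 :=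
  normsq_sum (fun g => (γ g).toWord.head?) s _ (fun i => some (q i, false))
    (fun _ _ h => hq (by simpa using h))
    fun i _ => ((supp_EF p hq h1 hγ k).1 i).mono fun _ h => h.2

lemma normsq_sum_F (k : ℕ) (s : Finset (Fin (M + 1))) :
    ‖vec (∑ i ∈ s, FF p k i)‖ ^ 2 = ∑ i ∈ s, ‖vec (FF p k i)‖ ^ 2 :=
  normsq_sum (fun g => (γ g).toWord.head?) s _ (fun i => some (q i, true))
    (fun _ _ h => hq (by simpa using h))
    fun i _ => ((supp_EF p hq h1 hγ k).2 i).mono fun _ h => h.2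

lemma normsq_EF (k : ℕ) : (∀ i, ‖vec (EE p k i)‖ ^ 2 = (M : ℝ) ^ (2 * k)) ∧
    (∀ j, ‖vec (FF p k j)‖ ^ 2 = (M : ℝ) ^ (2 * k + 1)) := by
  have step : ∀ k, (∀ i, ‖vec (EE p k i)‖ ^ 2 = (M : ℝ) ^ (2 * k)) →
      ∀ j, ‖vec (FF p k j)‖ ^ 2 = (M : ℝ) ^ (2 * k + 1) := by
    intro k hE j
    rw [FF, norm_vec_og_mul, normsq_sum_E p hq h1 hγ]
    simp [hE, pow_succ']
  induction k with
  | zero =>
    have hE : ∀ i, ‖vec (EE p 0 i)‖ ^ 2 = (M : ℝ) ^ (2 * 0) := fun i => by
      rw [EE, vec_og, norm_dl]; simp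
    exact ⟨hE, step 0 hE⟩
  | succ k ih =>
    have hE : ∀ i, ‖vec (EE p (k + 1) i)‖ ^ 2 = (M : ℝ) ^ (2 * (k + 1)) := fun i => by
      rw [EE_succ, norm_vec_og_mul, normsq_sum_F p hq h1 hγ]
      simp [ih.2]
      ring
    exact ⟨hE, step _ hE⟩

theorem exists_small_inverse (hM : 0 < M) (K : ℕ) (hK : 0 < K) :
    ∃ d : AG G, ‖vec d‖ ^ 2 ≤ (K + 1) / (M + 1) ∧
      ‖vec ((∑ j, og (p j)) * d - 1)‖ ^ 2 ≤ 1 / K := by
  have hM' : (0 : ℝ) < M := by exact_mod_cast hM
  have hK' : (0 : ℝ) < K := by exact_mod_cast hK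
  refine ⟨∑ k ∈ range (K + 1),
    ((-1) ^ k * (1 - k / K) / ((M + 1) * M ^ k) : ℝ) • ∑ l, EE p k l, ?_, ?_⟩
  · rw [normsq_sum (fun g => (γ g).toWord.length) _ _ (fun k => 2 * k + 1)
      (fun _ _ h => by simpa using h) fun k _ =>
        (Supp.sum fun i _ => ((supp_EF p hq h1 hγ k).1 i).mono fun _ h => h.1).smul _]
    refine (Finset.sum_le_card_nsmul _ _ (1 / ((M : ℝ) + 1)) fun k hk => ?_).trans
      (le_of_eq (by simp [div_eq_mul_inv]))
    rw [norm_vec_smul, mul_pow, normsq_sum_E p hq h1 hγ, sq_abs]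
    simp only [(normsq_EF p hq h1 hγ k).1, Finset.sum_const, Finset.card_univ, Fintype.card_fin,
      nsmul_eq_mul]
    have hk' : (k : ℝ) ≤ K := by exact_mod_cast Nat.lt_succ_iff.1 (Finset.mem_range.1 hk)
    have a1 : 0 ≤ 1 - (k : ℝ) / K := by rw [sub_nonneg, div_le_one hK']; exact hk'
    have a2 : 1 - (k : ℝ) / K ≤ 1 := by
      have : 0 ≤ (k : ℝ) / K := by positivity
      linarith
    have a3 : (1 - (k : ℝ) / K) ^ 2 ≤ 1 := by nlinarith
    have a4 : ((-1 : ℝ) ^ k) ^ 2 = 1 := by rw [← pow_mul, mul_comm, pow_mul]; simp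
    calc _ = (1 - (k : ℝ) / K) ^ 2 * (1 / ((M : ℝ) + 1)) := by
          rw [div_pow, mul_pow, a4]
          push_cast
          field_simp
          ring
      _ ≤ 1 * (1 / ((M : ℝ) + 1)) := by gcongr
      _ = _ := one_mul _
  · rw [x_mul_d p hM, div_self hK'.ne', sub_self, mul_zero, zero_div, zero_smul, add_zero,
      add_sub_cancel_left,
      normsq_sum (fun g => (γ g).toWord.length) _ _ (fun k => 2 * k + 2)
      (fun _ _ h => by simpa using h) fun k _ =>
        (Supp.sum fun i _ => ((supp_EF p hq h1 hγ k).2 i).mono fun _ h => h.1).smul _]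
    refine (Finset.sum_le_card_nsmul _ _ (1 / (K : ℝ) ^ 2) fun k hk => ?_).trans
      (le_of_eq (by simp; field_simp))
    rw [norm_vec_smul, mul_pow, normsq_sum_F p hq h1 hγ, sq_abs]
    simp only [(normsq_EF p hq h1 hγ k).2, Finset.sum_const, Finset.card_univ, Fintype.card_fin,
      nsmul_eq_mul]
    have a4 : ((-1 : ℝ) ^ k) ^ 2 = 1 := by rw [← pow_mul, mul_comm, pow_mul]; simp
    calc _ = (M / ((M : ℝ) + 1)) * (1 / (K : ℝ) ^ 2) := by
          rw [div_pow, mul_pow, a4]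
          push_cast
          field_simp
          ring
      _ ≤ 1 * (1 / (K : ℝ) ^ 2) := by
          gcongr
          rw [div_le_one (by positivity)]
          linarith
      _ = _ := one_mul _

end Tree

end Vale.Agent.P086
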