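import Mathlib

namespace Vale.Agent.P086

/-- The Hilbert space `ℓ²(G)`. -/
abbrev L2 (G : Type) : Type := lp (fun _ : G => ℂ) 2

/-- The set `λ(G)` of left translation operators on `ℓ²(G)`: `(λ(g) ξ)(h) = ξ(g⁻¹ h)`. -/
def leftRegular (G : Type) [Group G] : Set (L2 G →L[ℂ] L2 G) :=
  {T | ∃ g : G, ∀ (ξ : L2 G) (h : G), T ξ h = ξ (g⁻¹ * h)}

/-- The double commutant `S''` of a set of bounded operators, as a `*`-subalgebra of `B(E)`. -/
noncomputable def doubleCommutant {E : Type} [NormedAddCommGroup E] [InnerProductSpace ℂ E]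
    [CompleteSpace E] (S : Set (E →L[ℂ] E)) : StarSubalgebra ℂ (E →L[ℂ] E) :=
  StarSubalgebra.centralizer ℂ (Set.centralizer S)

/-- Two `*`-subalgebras of complex `*`-algebras are `*`-isomorphic. -/
def StarIsomorphic {A B : Type} [Semiring A] [StarRing A] [Algebra ℂ A] [StarModule ℂ A]
    [Semiring B] [StarRing B] [Algebra ℂ B] [StarModule ℂ B]
    (S : StarSubalgebra ℂ A) (T : StarSubalgebra ℂ B) : Prop :=
  Nonempty (S ≃⋆ₐ[ℂ] T)

/-- The von Neumann algebras `S''` and `T''` are `*`-isomorphic. -/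
def DoubleCommutantsIsomorphic {E E' : Type} [NormedAddCommGroup E] [InnerProductSpace ℂ E]
    [CompleteSpace E] [NormedAddCommGroup E'] [InnerProductSpace ℂ E'] [CompleteSpace E']
    (S : Set (E →L[ℂ] E)) (T : Set (E' →L[ℂ] E')) : Prop :=
  StarIsomorphic (doubleCommutant S) (doubleCommutant T)

/-- `L(G) = λ(G)''` and `L(K) = λ(K)''` are `*`-isomorphic. -/
def GroupFactorsIsomorphic (G K : Type) [Group G] [Group K] : Prop :=
  DoubleCommutantsIsomorphic (leftRegular G) (leftRegular K)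

end Vale.Agent.P086
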