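import Vale.Agent.P086.Basic

/-! Generation of the group von Neumann algebra, trace-preserving isomorphisms, and
completeness of the unitary group in the `2`-norm. -/

namespace Vale.Agent.P086

open Filter Topology
open scoped InnerProductSpace

variable {G K : Type} [Group G] [Group K]

/-- The canonical conjugation. -/
noncomputable def Jc (ξ : L2 G) : L2 G := star (perm (Equiv.inv G) ξ)

lemma InM.star_dl {T : BG G} (hT : InM T) : (Star.star T) (dl 1) = Jc (T (dl 1)) := by
  refine lp.ext (funext fun g => ?_)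
  rw [hT.star_apply, Jc, lp.star_apply, perm_apply]
  rfl

lemma continuous_Jc : Continuous (Jc : L2 G → L2 G) :=
  continuous_star.comp (perm (Equiv.inv G)).continuous

lemma Jc_add (ξ η : L2 G) : Jc (ξ + η) = Jc ξ + Jc η := by simp [Jc]

lemma Jc_smul (c : ℂ) (ξ : L2 G) : Jc (c • ξ) = star c • Jc ξ := by simp [Jc]

lemma Jc_zero : Jc (0 : L2 G) = 0 := by simp [Jc]

lemma Jc_dl (g : G) : Jc (dl g) = dl g⁻¹ := by
  have := (InM.lam g).star_dl
  rw [star_lam, lam_dl, lam_dl, mul_one, mul_one] at this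
  exact this.symm

omit [Group G] in
lemma inner_star_left (T : BG G) (ξ η : L2 G) : ⟪(star T) ξ, η⟫_ℂ = ⟪ξ, T η⟫_ℂ := by
  rw [ContinuousLinearMap.star_eq_adjoint, ContinuousLinearMap.adjoint_inner_left]

omit [Group G] in
lemma inner_star_right (T : BG G) (ξ η : L2 G) : ⟪ξ, (star T) η⟫_ℂ = ⟪T ξ, η⟫_ℂ := by
  rw [ContinuousLinearMap.star_eq_adjoint, ContinuousLinearMap.adjoint_inner_right]

lemma IsRep.generates {π : K →* BG G} (h : IsRep π)
    (hd : ⊤ ≤ (Submodule.span ℂ (Set.range fun k => π k (dl 1))).topologicalClosure)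
    (S : BG G) (hS : ∀ k, S * π k = π k * S) (g : G) : S * lam g = lam g * S := by
  refine clm_ext_inner fun k l => ?_
  let V : Submodule ℂ (L2 G) :=
    { carrier := {ξ | ⟪dl l, S (rho k ξ)⟫_ℂ = ⟪rho l (Jc ξ), S (dl k)⟫_ℂ}
      add_mem' := fun {a b} ha hb => by
        simp only [Set.mem_ofPred_eq] at *
        rw [Jc_add, map_add, map_add, map_add, inner_add_left, inner_add_right, ha, hb]
      zero_mem' := by simp [Jc_zero]
      smul_mem' := fun c a ha => by
        simp only [Set.mem_ofPred_eq] at *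
        rw [Jc_smul, map_smul, map_smul, map_smul, inner_smul_left, inner_smul_right, ha]
        simp }
  have hcl : IsClosed (V : Set (L2 G)) :=
    isClosed_eq (by fun_prop) (Continuous.inner (𝕜 := ℂ)
      ((rho l).continuous.comp continuous_Jc) continuous_const)
  have hle : Submodule.span ℂ (Set.range fun k => π k (dl 1)) ≤ V := by
    rw [Submodule.span_le]
    rintro _ ⟨j, rfl⟩
    change ⟪dl l, S (rho k (π j (dl 1)))⟫_ℂ = ⟪rho l (Jc (π j (dl 1))), S (dl k)⟫_ℂ
    rw [← (h.mem j).apply_dl, ← (h.mem j).star_dl, ← (h.mem j).star.apply_dl, inner_star_left]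
    exact congrArg (fun X : BG G => ⟪dl l, X (dl k)⟫_ℂ) (hS j)
  have hg : dl g ∈ V := (hd.trans (Submodule.topologicalClosure_minimal _ hle hcl)) trivial
  change ⟪dl l, S (rho k (dl g))⟫_ℂ = ⟪rho l (Jc (dl g)), S (dl k)⟫_ℂ at hg
  rw [Jc_dl, rho_dl, rho_dl, ← lam_dl, ← lam_dl, ← star_lam, inner_star_left] at hg
  exact hg

/-- Unitaries implementing a trace-preserving isomorphism of group von Neumann algebras. -/
structure Good (U : L2 K ≃ₗᵢ[ℂ] L2 G) : Prop where
  one : U (dl 1) = dl 1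
  mem : ∀ T, InM T ↔ InM (U.conjStarAlgEquiv T)

lemma Good.refl : Good (LinearIsometryEquiv.refl ℂ (L2 G)) := ⟨rfl, fun _ => Iff.rfl⟩

lemma Good.trans {K' : Type} [Group K'] {U : L2 K' ≃ₗᵢ[ℂ] L2 K} {V : L2 K ≃ₗᵢ[ℂ] L2 G}
    (hU : Good U) (hV : Good V) : Good (U.trans V) :=
  ⟨by rw [LinearIsometryEquiv.trans_apply, hU.one, hV.one],
    fun T => (hU.mem T).trans (hV.mem _)⟩

lemma Good.symm {U : L2 K ≃ₗᵢ[ℂ] L2 G} (hU : Good U) : Good U.symm := by
  refine ⟨by rw [← hU.one, U.symm_apply_apply], fun T => ?_⟩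
  rw [hU.mem, ← LinearIsometryEquiv.symm_conjStarAlgEquiv, StarAlgEquiv.apply_symm_apply]

/-- The representation attached to a unitary. -/
noncomputable def repOf (U : L2 K ≃ₗᵢ[ℂ] L2 G) : K →* BG G where
  toFun k := U.conjStarAlgEquiv (lam k)
  map_one' := by rw [map_one, map_one]
  map_mul' k l := by rw [map_mul, map_mul]

lemma Good.isRep {U : L2 K ≃ₗᵢ[ℂ] L2 G} (hU : Good U) : IsRep (repOf U) :=
  ⟨fun k => (hU.mem _).1 (InM.lam k), fun k => by
    change star (U.conjStarAlgEquiv (lam k)) = U.conjStarAlgEquiv (lam k⁻¹)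
    rw [← map_star, star_lam]⟩

lemma Good.repOf_dl {U : L2 K ≃ₗᵢ[ℂ] L2 G} (hU : Good U) (k : K) :
    repOf U k (dl 1) = U (dl k) := by
  change U (lam k (U.symm (dl 1))) = U (dl k)
  rw [hU.symm.one, lam_dl, mul_one]

lemma IsRep.orthonormal {π : K →* BG G} (h : IsRep π) (ho : ∀ k, k ≠ 1 → π k (dl 1) 1 = 0) :
    Orthonormal ℂ fun k => π k (dl 1) := by
  classical
  rw [orthonormal_iff_ite]
  intro k l
  rw [← inner_star_right, h.star, inner_dl]
  have e : π k⁻¹ (π l (dl 1)) = π (k⁻¹ * l) (dl 1) := by rw [map_mul]; rfl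
  rw [e]
  split_ifs with hkl
  · subst hkl
    simp [dl_self]
  · exact ho _ fun h1 => hkl (inv_mul_eq_one.1 h1)

lemma IsRep.exists_good {π : K →* BG G} (h : IsRep π) (ho : ∀ k, k ≠ 1 → π k (dl 1) 1 = 0)
    (hd : ⊤ ≤ (Submodule.span ℂ (Set.range fun k => π k (dl 1))).topologicalClosure) :
    ∃ U : L2 K ≃ₗᵢ[ℂ] L2 G, Good U ∧ ∀ k, repOf U k = π k := by
  let U := isoOf (h.orthonormal ho) hd
  have hU : ∀ k, U (dl k) = π k (dl 1) := isoOf_dl _ _
  have hc : ∀ k, U.conjStarAlgEquiv (lam k) = π k := by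
    intro k
    have e : (U.toContinuousLinearEquiv : L2 K →L[ℂ] L2 G) ∘L lam k
        = π k ∘L (U.toContinuousLinearEquiv : L2 K →L[ℂ] L2 G) := clm_ext fun l => by
      change U (lam k (dl l)) = π k (U (dl l))
      rw [lam_dl, hU, hU, map_mul]
      rfl
    ext1 ξ
    have := congrArg (fun X : L2 K →L[ℂ] L2 G => X (U.symm ξ)) e
    simpa using this
  refine ⟨U, ⟨by rw [hU, map_one]; rfl, fun T => ⟨fun hT S hS => ?_, fun hT S hS => ?_⟩⟩, hc⟩
  · obtain ⟨S, rfl⟩ := EquivLike.surjective U.conjStarAlgEquiv S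
    rw [← map_mul, ← map_mul, hT S fun k => ?_]
    apply EquivLike.injective U.conjStarAlgEquiv
    rw [map_mul, map_mul, hc]
    exact h.mem k _ hS
  · apply EquivLike.injective U.conjStarAlgEquiv
    rw [map_mul, map_mul]
    refine hT _ (h.generates hd _ fun k => ?_)
    rw [← hc, ← map_mul, ← map_mul, hS]

lemma Good.isomorphic {U : L2 K ≃ₗᵢ[ℂ] L2 G} (hU : Good U) : GroupFactorsIsomorphic K G := by
  refine ⟨{ toFun := fun T => ⟨U.conjStarAlgEquiv T.1, ?_⟩
            invFun := fun T => ⟨U.symm.conjStarAlgEquiv T.1, ?_⟩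
            left_inv := fun T => Subtype.ext ?_
            right_inv := fun T => Subtype.ext ?_
            map_mul' := fun S T => Subtype.ext ?_
            map_add' := fun S T => Subtype.ext ?_
            map_star' := fun T => Subtype.ext ?_
            map_smul' := fun c T => Subtype.ext ?_ }⟩
  · exact (mem_doubleCommutant _).2 ((hU.mem _).1 ((mem_doubleCommutant _).1 T.2))
  · exact (mem_doubleCommutant _).2 ((hU.symm.mem _).1 ((mem_doubleCommutant _).1 T.2))
  · exact U.conjStarAlgEquiv.symm_apply_apply _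
  · exact U.conjStarAlgEquiv.apply_symm_apply _
  · exact map_mul U.conjStarAlgEquiv _ _
  · exact map_add U.conjStarAlgEquiv _ _
  · exact map_star U.conjStarAlgEquiv _
  · exact map_smul U.conjStarAlgEquiv _ _

lemma good_perm (e : K ≃* G) : Good (perm e.toEquiv) := by
  have h : IsRep ((lam : G →* BG G).comp e.toMonoidHom) := isRep_lam.comp _
  have e1 : ∀ k, ((lam : G →* BG G).comp e.toMonoidHom) k (dl 1) = dl (e k) := fun k => by
    simp [lam_dl]
  obtain ⟨U, hU, hr⟩ := h.exists_good (fun k hk => by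
    rw [e1]
    exact dl_ne fun h1 => hk (e.map_eq_one_iff.1 h1.symm)) (by
    simp only [e1]
    have : Set.range (fun k => dl (e k)) = Set.range (dl : G → L2 G) := e.surjective.range_comp dl
    rw [this]
    exact dense_dl)
  have : U = perm e.toEquiv := by
    have e2 : (U.toContinuousLinearEquiv : L2 K →L[ℂ] L2 G)
        = (perm e.toEquiv).toContinuousLinearEquiv := clm_ext fun k => by
      change U (dl k) = perm e.toEquiv (dl k)
      rw [← hU.repOf_dl, hr, e1, perm_dl]
      rfl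
    ext1 ξ
    exact congrArg (fun X : L2 K →L[ℂ] L2 G => X ξ) e2
  exact this ▸ hU

omit [Group K] in
lemma exists_isom {E : Type} [NormedAddCommGroup E] [InnerProductSpace ℂ E] [CompleteSpace E]
    {v : K → E} (hv : Orthonormal ℂ v) :
    ∃ T : L2 K →L[ℂ] E, (∀ ξ, ‖T ξ‖ = ‖ξ‖) ∧ ∀ k, T (dl k) = v k := by
  classical
  refine ⟨hv.orthogonalFamily.linearIsometry.toContinuousLinearMap,
    hv.orthogonalFamily.linearIsometry.norm_map, fun k => ?_⟩
  change hv.orthogonalFamily.linearIsometry (lp.single 2 k 1) = v k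
  rw [OrthogonalFamily.linearIsometry_apply_single]
  simp

omit [Group G] in
lemma star_mul_of_norm {T : BG G} (h : ∀ ξ, ‖T ξ‖ = ‖ξ‖) : star T * T = 1 :=
  T.norm_map_iff_adjoint_comp_self.1 h

lemma exists_strong_limit {u : ℕ → BG G} (hu : ∀ n, UM (u n)) {ξ : L2 G}
    (h : Tendsto (fun n => u n (dl 1)) atTop (𝓝 ξ)) :
    ∃ T : BG G, (∀ η, ‖T η‖ = ‖η‖) ∧ T (dl 1) = ξ ∧
      ∀ η, Tendsto (fun n => u n η) atTop (𝓝 (T η)) := by
  classical
  have h1 : ∀ g, Tendsto (fun n => u n (dl g)) atTop (𝓝 (rho g ξ)) := fun g => by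
    simp only [fun n => (hu n).mem.apply_dl g]
    exact ((rho g).continuous.tendsto _).comp h
  have ho : Orthonormal ℂ fun g => rho g ξ := by
    rw [orthonormal_iff_ite]
    intro g k
    have h2 := (h1 g).inner (𝕜 := ℂ) (h1 k)
    have h3 : ∀ n, ⟪u n (dl g), u n (dl k)⟫_ℂ = if g = k then 1 else 0 := fun n => by
      rw [← inner_star_right, ← orthonormal_iff_ite.1 orthonormal_dl g k]
      exact congrArg (fun X : BG G => ⟪dl g, X (dl k)⟫_ℂ) (hu n).left
    simp only [h3] at h2
    exact tendsto_nhds_unique h2 tendsto_const_nhds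
  obtain ⟨T, hT1, hT2⟩ := exists_isom ho
  refine ⟨T, hT1, ?_, fun η => ?_⟩
  · exact tendsto_nhds_unique (hT2 1 ▸ h1 1) h
  let V : Submodule ℂ (L2 G) :=
    { carrier := {η | Tendsto (fun n => u n η) atTop (𝓝 (T η))}
      add_mem' := fun {a b} ha hb => by
        simp only [Set.mem_ofPred_eq, map_add] at *
        exact ha.add hb
      zero_mem' := by simp
      smul_mem' := fun c a ha => by
        simp only [Set.mem_ofPred_eq, map_smul] at *
        exact ha.const_smul c }
  have hcl : IsClosed (V : Set (L2 G)) := by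
    refine Equicontinuous.isClosed_setOfPred_tendsto (F := fun n η => u n η) ?_ T.continuous
    refine (LipschitzWith.uniformEquicontinuous _ 1 fun n => ?_).equicontinuous
    exact (AddMonoidHomClass.isometry_of_norm (u n) (hu n).norm).lipschitz
  have hle : Submodule.span ℂ (Set.range (dl : G → L2 G)) ≤ V := by
    rw [Submodule.span_le]
    rintro _ ⟨g, rfl⟩
    change Tendsto (fun n => u n (dl g)) atTop (𝓝 (T (dl g)))
    rw [hT2]
    exact h1 g
  exact (dense_dl.trans (Submodule.topologicalClosure_minimal _ hle hcl)) (trivial : η ∈ ⊤)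

lemma exists_um_of_tendsto {u : ℕ → BG G} (hu : ∀ n, UM (u n)) {ξ : L2 G}
    (h : Tendsto (fun n => u n (dl 1)) atTop (𝓝 ξ)) : ∃ v, UM v ∧ v (dl 1) = ξ := by
  obtain ⟨T, hT1, hT2, hT3⟩ := exists_strong_limit hu h
  have h' : Tendsto (fun n => star (u n) (dl 1)) atTop (𝓝 (Jc ξ)) := by
    simp only [fun n => (hu n).mem.star_dl]
    exact (continuous_Jc.tendsto _).comp h
  obtain ⟨T', hT1', -, hT3'⟩ := exists_strong_limit (fun n => (hu n).star) h'
  have e : star T = T' := clm_ext_inner fun k l => by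
    rw [inner_star_right]
    have a1 := (hT3 (dl l)).inner (𝕜 := ℂ) (tendsto_const_nhds (x := dl k))
    have a2 := (tendsto_const_nhds (x := dl l)).inner (𝕜 := ℂ) (hT3' (dl k))
    simp only [inner_star_right] at a2
    exact tendsto_nhds_unique a1 a2
  refine ⟨T, ⟨InM.of_tendsto (fun n => (hu n).mem) hT3, star_mul_of_norm hT1, ?_⟩, hT2⟩
  have := star_mul_of_norm hT1'
  rwa [← e, star_star] at this

end Vale.Agent.P086
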